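import Vale.Agent.P297.MathlibUsed
import Mathlib.RingTheory.Derivation.MapCoeffs
import Mathlib.LinearAlgebra.Lagrange
import Mathlib.Tactic.LinearCombination

/-!
The differential form of Abel's theorem for hyperelliptic curves.
-/

set_option linter.unusedSectionVars false
set_option linter.style.haveILetI false

open Polynomial

namespace Vale.Agent.P297.Gen

section

variable {N : Type} [Field N]

/-- The derivation `D` applied to the coefficients. -/
noncomputable def dc (D : Derivation ℤ N N) : Derivation ℤ N[X] N[X] :=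
  letI : Differential N := ⟨D⟩
  Differential.mapCoeffs

theorem coeff_dc (D : Derivation ℤ N N) (p : N[X]) (n : ℕ) : (dc D p).coeff n = D (p.coeff n) :=
  rfl

theorem dc_X (D : Derivation ℤ N N) : dc D X = 0 := by
  letI : Differential N := ⟨D⟩
  exact Differential.mapCoeffs_X

theorem dc_C (D : Derivation ℤ N N) (x : N) : dc D (C x) = C (D x) := by
  letI : Differential N := ⟨D⟩
  exact Differential.mapCoeffs_C x

theorem dc_eval (D : Derivation ℤ N N) (p : N[X]) (z : N) :
    D (p.eval z) = (dc D p).eval z + p.derivative.eval z * D z := by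
  letI : Differential N := ⟨D⟩
  have h := Differential.deriv_aeval_eq z p
  rw [Polynomial.coe_aeval_eq_eval] at h
  exact h

theorem natDegree_dc (D : Derivation ℤ N N) (p : N[X]) : (dc D p).natDegree ≤ p.natDegree := by
  rw [Polynomial.natDegree_le_iff_coeff_eq_zero]
  intro n hn
  rw [coeff_dc, Polynomial.coeff_eq_zero_of_natDegree_lt hn, map_zero]

theorem dc_mul (D : Derivation ℤ N N) (p q : N[X]) : dc D (p * q) = p * dc D q + q * dc D p := by
  rw [Derivation.leibniz, smul_eq_mul, smul_eq_mul]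

theorem dc_pow_root (D : Derivation ℤ N N) {r : N} (hr : D r = 0) (e : ℕ) :
    dc D ((X - C r) ^ e) = 0 := by
  rw [Derivation.leibniz_pow, map_sub, dc_X, dc_C, hr, C_0, sub_zero, smul_zero, smul_zero]

theorem pow_dvd_dc (D : Derivation ℤ N N) {r : N} (hr : D r = 0) {e : ℕ} {p : N[X]}
    (h : (X - C r) ^ e ∣ p) : (X - C r) ^ e ∣ dc D p := by
  obtain ⟨q, rfl⟩ := h
  rw [dc_mul, dc_pow_root D hr, mul_zero, add_zero]
  exact dvd_mul_right _ _

variable [CharZero N]

/-- The Wronskian vanishes to the order of the norm at the constants. -/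
theorem pow_dvd_wronskian (D : Derivation ℤ N N) {f α β : N[X]} (hf : dc D f = 0)
    (hsq : Squarefree f) {r : N} (hr : D r = 0) {e : ℕ}
    (h : (X - C r) ^ e ∣ α ^ 2 - β ^ 2 * f) :
    (X - C r) ^ e ∣ dc D β * α - dc D α * β := by
  set W := dc D β * α - dc D α * β with hW
  set M := α ^ 2 - β ^ 2 * f with hM
  by_cases hW0 : W = 0
  · rw [hW0]
    exact dvd_zero _
  have hα : α ≠ 0 := by
    rintro rfl
    apply hW0
    rw [hW, map_zero]
    ring
  have hβ : β ≠ 0 := by
    rintro rfl
    apply hW0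
    rw [hW, map_zero]
    ring
  have hf0 : f ≠ 0 := hsq.ne_zero
  have hdM : dc D M = 2 * α * dc D α - 2 * β * dc D β * f := by
    rw [hM, map_sub, dc_mul, hf, pow_two, pow_two, dc_mul, dc_mul]
    ring
  have id1 : 2 * (α * W) = 2 * M * dc D β - β * dc D M := by
    rw [hdM, hM, hW]
    ring
  have id2 : 2 * (β * f * W) = 2 * M * dc D α - α * dc D M := by
    rw [hdM, hM, hW]
    ring
  have h2 : (2 : N[X]) ≠ 0 := two_ne_zero
  have hu : ∀ {p : N[X]} {n : ℕ}, (X - C r) ^ n ∣ 2 * p → (X - C r) ^ n ∣ p := by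
    intro p n hp
    have h3 : IsUnit (2 : N[X]) := by
      have h4 : (2 : N[X]) = C 2 := (map_ofNat C 2).symm
      rw [h4]
      exact Polynomial.isUnit_C.2 (isUnit_iff_ne_zero.2 two_ne_zero)
    exact (h3.dvd_mul_left).1 hp
  have hmα := Polynomial.pow_rootMultiplicity_dvd α r
  have hmβ := Polynomial.pow_rootMultiplicity_dvd β r
  have hdM' := pow_dvd_dc D hr h
  rw [← Polynomial.le_rootMultiplicity_iff hW0]
  have hmf : f.rootMultiplicity r ≤ 1 := by
    by_contra hlt
    have h3 : (X - C r) ^ 2 ∣ f :=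
      (Polynomial.le_rootMultiplicity_iff hf0).1 (by omega)
    have h4 := hsq (X - C r) (by rw [← pow_two]; exact h3)
    exact Polynomial.not_isUnit_X_sub_C r h4
  rcases le_total (α.rootMultiplicity r) (β.rootMultiplicity r) with hab | hab
  · have h3 : (X - C r) ^ (e + β.rootMultiplicity r) ∣ α * W := by
      apply hu
      rw [id1, pow_add]
      refine dvd_sub ?_ ?_
      · rw [mul_assoc]
        exact Dvd.dvd.mul_left (mul_dvd_mul h (pow_dvd_dc D hr hmβ)) _
      · rw [mul_comm β]
        exact mul_dvd_mul hdM' hmβ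
    have h4 := (Polynomial.le_rootMultiplicity_iff (mul_ne_zero hα hW0)).2 h3
    rw [Polynomial.rootMultiplicity_mul (mul_ne_zero hα hW0)] at h4
    omega
  · have h3 : (X - C r) ^ (e + α.rootMultiplicity r) ∣ β * f * W := by
      apply hu
      rw [id2, pow_add]
      refine dvd_sub ?_ ?_
      · rw [mul_assoc]
        exact Dvd.dvd.mul_left (mul_dvd_mul h (pow_dvd_dc D hr hmα)) _
      · rw [mul_comm α]
        exact mul_dvd_mul hdM' hmα
    have hβf : β * f ≠ 0 := mul_ne_zero hβ hf0
    have h4 := (Polynomial.le_rootMultiplicity_iff (mul_ne_zero hβf hW0)).2 h3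
    rw [Polynomial.rootMultiplicity_mul (mul_ne_zero hβf hW0),
      Polynomial.rootMultiplicity_mul hβf] at h4
    rcases hab.lt_or_eq with hlt | heq
    · omega
    · have h3 : (X - C r) ^ (e + β.rootMultiplicity r) ∣ α * W := by
        apply hu
        rw [id1, pow_add]
        refine dvd_sub ?_ ?_
        · rw [mul_assoc]
          exact Dvd.dvd.mul_left (mul_dvd_mul h (pow_dvd_dc D hr hmβ)) _
        · rw [mul_comm β]
          exact mul_dvd_mul hdM' hmβ
      have h4 := (Polynomial.le_rootMultiplicity_iff (mul_ne_zero hα hW0)).2 h3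
      rw [Polynomial.rootMultiplicity_mul (mul_ne_zero hα hW0)] at h4
      omega

/-- The degree of the Wronskian. -/
theorem natDegree_wronskian (D : Derivation ℤ N N) {f α β : N[X]} (hf : dc D f = 0)
    {g : ℕ} (hg : 2 * g + 1 ≤ f.natDegree) (hW0 : dc D β * α - dc D α * β ≠ 0) :
    (dc D β * α - dc D α * β).natDegree + g + 1 ≤ (α ^ 2 - β ^ 2 * f).natDegree := by
  set W := dc D β * α - dc D α * β with hW
  set M := α ^ 2 - β ^ 2 * f with hM
  have hα : α ≠ 0 := by
    rintro rfl
    apply hW0
    rw [hW, map_zero]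
    ring
  have hβ : β ≠ 0 := by
    rintro rfl
    apply hW0
    rw [hW, map_zero]
    ring
  have hf0 : f ≠ 0 := by
    rintro rfl
    rw [natDegree_zero] at hg
    omega
  have hdM : dc D M = 2 * α * dc D α - 2 * β * dc D β * f := by
    rw [hM, map_sub, dc_mul, hf, pow_two, pow_two, dc_mul, dc_mul]
    ring
  have id1 : 2 * (α * W) = 2 * M * dc D β - β * dc D M := by
    rw [hdM, hM, hW]
    ring
  have id2 : 2 * (β * f * W) = 2 * M * dc D α - α * dc D M := by
    rw [hdM, hM, hW]
    ring
  have h4 : (2 : N[X]) = C 2 := (map_ofNat C 2).symm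
  have h2 : (2 : N) ≠ 0 := two_ne_zero
  have hβf : β * f ≠ 0 := mul_ne_zero hβ hf0
  have e1 : (2 * (α * W)).natDegree = α.natDegree + W.natDegree := by
    rw [h4, natDegree_C_mul h2, natDegree_mul hα hW0]
  have e2 : (2 * (β * f * W)).natDegree = β.natDegree + f.natDegree + W.natDegree := by
    rw [h4, natDegree_C_mul h2, natDegree_mul hβf hW0, natDegree_mul hβ hf0]
  have b1 : (2 * M * dc D β - β * dc D M).natDegree ≤ M.natDegree + β.natDegree := by
    refine (natDegree_sub_le _ _).trans (max_le ?_ ?_)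
    · rw [h4, mul_assoc, natDegree_C_mul h2]
      exact natDegree_mul_le.trans (Nat.add_le_add_left (natDegree_dc D β) _)
    · refine natDegree_mul_le.trans ?_
      have := natDegree_dc D M
      omega
  have b2 : (2 * M * dc D α - α * dc D M).natDegree ≤ M.natDegree + α.natDegree := by
    refine (natDegree_sub_le _ _).trans (max_le ?_ ?_)
    · rw [h4, mul_assoc, natDegree_C_mul h2]
      exact natDegree_mul_le.trans (Nat.add_le_add_left (natDegree_dc D α) _)
    · refine natDegree_mul_le.trans ?_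
      have := natDegree_dc D M
      omega
  rw [← id1, e1] at b1
  rw [← id2, e2] at b2
  omega

end

section

variable {N : Type} [Field N] [IsAlgClosed N] [CharZero N]

/-- **Abel's theorem.** -/
theorem abel (D : Derivation ℤ N N) {f α β Q : N[X]} (hf : ∀ n, D (f.coeff n) = 0)
    (hsq : Squarefree f) {g : ℕ} (hg : 2 * g + 1 ≤ f.natDegree) {ι : Type} [Fintype ι]
    {z y : ι → N} (hz : Function.Injective z) (hy : ∀ i, y i ^ 2 = f.eval (z i))
    (hG : ∀ i, α.eval (z i) + β.eval (z i) * y i = 0) (hQ0 : Q ≠ 0)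
    (hN : α ^ 2 - β ^ 2 * f = (∏ i, (X - C (z i))) * Q) (hQ : ∀ r, Q.IsRoot r → D r = 0)
    {k : ℕ} (hk : k < g) : ∑ i, z i ^ k * D (z i) / y i = 0 := by
  classical
  have hdf : dc D f = 0 := by
    ext n
    rw [coeff_dc, hf, coeff_zero]
  set M := α ^ 2 - β ^ 2 * f with hM
  set W := dc D β * α - dc D α * β with hW
  let S : Finset ι := Finset.univ.filter (fun i => D (z i) ≠ 0)
  obtain ⟨R, hRdef⟩ : ∃ R : N[X], R = (∏ i ∈ Sᶜ, (X - C (z i))) * Q := ⟨_, rfl⟩
  obtain ⟨PS, hPSdef⟩ : ∃ PS : N[X], PS = ∏ i ∈ S, (X - C (z i)) := ⟨_, rfl⟩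
  have hMR : M = PS * R := by
    rw [hN, hRdef, hPSdef, ← Finset.prod_mul_prod_compl S, mul_assoc]
  have hR0 : R ≠ 0 := by
    rw [hRdef]
    exact mul_ne_zero (Finset.prod_ne_zero_iff.2 fun i _ => X_sub_C_ne_zero _) hQ0
  have hPS0 : PS ≠ 0 := by
    rw [hPSdef]
    exact Finset.prod_ne_zero_iff.2 fun i _ => X_sub_C_ne_zero _
  have hM0 : M ≠ 0 := by
    rw [hMR]
    exact mul_ne_zero hPS0 hR0
  have hRroot : ∀ r, R.IsRoot r → D r = 0 := by
    intro r hr
    rw [hRdef, IsRoot.def, eval_mul, mul_eq_zero] at hr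
    rcases hr with hr | hr
    · rw [eval_prod, Finset.prod_eq_zero_iff] at hr
      obtain ⟨i, hi, hr⟩ := hr
      rw [eval_sub, eval_X, eval_C, sub_eq_zero] at hr
      rw [hr]
      by_contra hne
      exact (Finset.mem_compl.1 hi) (Finset.mem_filter.2 ⟨Finset.mem_univ _, hne⟩)
    · exact hQ r hr
  obtain ⟨W₁, hW₁, hdeg⟩ : ∃ W₁ : N[X], W = R * W₁ ∧ (W₁ = 0 ∨ W₁.natDegree + g + 1 ≤ S.card) := by
    by_cases hW0 : W = 0
    · exact ⟨0, by rw [hW0, mul_zero], Or.inl rfl⟩
    · have hdvd : R ∣ W := by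
        rw [IsAlgClosed.dvd_iff_roots_le_roots hR0 hW0, Multiset.le_iff_count]
        intro r
        rw [count_roots, count_roots]
        by_cases hr : R.IsRoot r
        · rw [le_rootMultiplicity_iff hW0]
          refine pow_dvd_wronskian D hdf hsq (hRroot r hr) ?_
          rw [← hM, hMR]
          exact Dvd.dvd.mul_left (pow_rootMultiplicity_dvd R r) _
        · rw [rootMultiplicity_eq_zero hr]
          exact Nat.zero_le _
      obtain ⟨W₁, hW₁⟩ := hdvd
      refine ⟨W₁, hW₁, Or.inr ?_⟩
      have hW₁0 : W₁ ≠ 0 := by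
        rintro rfl
        exact hW0 (by rw [hW₁, mul_zero])
      have h1 := natDegree_wronskian D hdf hg (α := α) (β := β) hW0
      rw [← hM, ← hW, hMR, natDegree_mul hPS0 hR0, hW₁, natDegree_mul hR0 hW₁0] at h1
      have h2 : PS.natDegree = S.card := by
        rw [hPSdef, natDegree_prod_of_monic _ _ fun i _ => monic_X_sub_C _]
        simp
      omega
  have hdM : dc D M = 2 * α * dc D α - 2 * β * dc D β * f := by
    rw [hM, map_sub, dc_mul, hdf, pow_two, pow_two, dc_mul, dc_mul]
    ring
  have id1 : 2 * (α * W) = 2 * M * dc D β - β * dc D M := by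
    rw [hdM, hM, hW]
    ring
  -- the values at the moving points
  have hval : ∀ i ∈ S, W₁.eval (z i) / ∏ j ∈ S.erase i, (z i - z j) =
      - (D (z i) / (2 * y i)) := by
    intro i hi
    have hDi : D (z i) ≠ 0 := (Finset.mem_filter.1 hi).2
    have hRi : R.eval (z i) ≠ 0 := fun h => hDi (hRroot _ h)
    have hMi : M.eval (z i) = 0 := by
      rw [hN, eval_mul, eval_prod, Finset.prod_eq_zero (Finset.mem_univ i) (by
        rw [eval_sub, eval_X, eval_C, sub_self]), zero_mul]
    have hPSi : PS.derivative.eval (z i) = ∏ j ∈ S.erase i, (z i - z j) := by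
      rw [hPSdef]
      exact Lagrange.eval_nodal_derivative_eval_node_eq (s := S) (v := z) hi
        |>.trans (by rw [Lagrange.eval_nodal])
    have hPi : (∏ j ∈ S.erase i, (z i - z j)) ≠ 0 := by
      rw [Finset.prod_ne_zero_iff]
      intro j hj
      exact sub_ne_zero.2 fun h => (Finset.mem_erase.1 hj).1 (hz h).symm
    have hPS : PS.eval (z i) = 0 := by
      rw [hPSdef, eval_prod, Finset.prod_eq_zero hi (by rw [eval_sub, eval_X, eval_C, sub_self])]
    have hM' : M.derivative.eval (z i) = (∏ j ∈ S.erase i, (z i - z j)) * R.eval (z i) := by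
      rw [hMR, derivative_mul, eval_add, eval_mul, eval_mul, hPSi, hPS, zero_mul, add_zero]
    have hM'0 : M.derivative.eval (z i) ≠ 0 := by
      rw [hM']
      exact mul_ne_zero hPi hRi
    have hβi : β.eval (z i) ≠ 0 := by
      intro h0
      have hα0 : α.eval (z i) = 0 := by
        have := hG i
        rw [h0, zero_mul, add_zero] at this
        exact this
      apply hM'0
      rw [hM]
      simp only [derivative_sub, derivative_mul, derivative_pow, eval_sub, eval_add, eval_mul,
        eval_pow, h0, hα0]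
      simp
    have hyi : y i ≠ 0 := by
      intro h0
      have hfi : f.eval (z i) = 0 := by rw [← hy i, h0]; ring
      have h1 := dc_eval D f (z i)
      rw [hfi, map_zero, hdf, eval_zero, zero_add] at h1
      have h2 : f.derivative.eval (z i) = 0 := (mul_eq_zero.1 h1.symm).resolve_right hDi
      have h3 : (X - C (z i)) ^ 2 ∣ f := by
        have h4 : 1 < f.rootMultiplicity (z i) := by
          rw [one_lt_rootMultiplicity_iff_isRoot hsq.ne_zero]
          exact ⟨hfi, h2⟩
        exact (le_rootMultiplicity_iff hsq.ne_zero).1 h4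
      exact not_isUnit_X_sub_C (z i) (hsq (X - C (z i)) (by rw [← pow_two]; exact h3))
    have h1 : (dc D M).eval (z i) = - (M.derivative.eval (z i) * D (z i)) := by
      have h2 := dc_eval D M (z i)
      rw [hMi, map_zero] at h2
      linear_combination - h2
    have h2 := congrArg (fun p : N[X] => p.eval (z i)) id1
    simp only [eval_mul, eval_sub, eval_ofNat, hMi, h1] at h2
    have h3 := hG i
    have h4 : W.eval (z i) = R.eval (z i) * W₁.eval (z i) := by rw [hW₁, eval_mul]
    rw [h4, hM'] at h2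
    have h5 : β.eval (z i) * R.eval (z i) * (2 * y i * W₁.eval (z i) +
        (∏ j ∈ S.erase i, (z i - z j)) * D (z i)) = 0 := by
      linear_combination - h2 + 2 * R.eval (z i) * W₁.eval (z i) * h3
    have h6 : 2 * y i * W₁.eval (z i) + (∏ j ∈ S.erase i, (z i - z j)) * D (z i) = 0 :=
      (mul_eq_zero.1 h5).resolve_left (mul_ne_zero hβi hRi)
    rw [div_eq_iff hPi]
    field_simp
    linear_combination h6
  have hsum : ∑ i ∈ S, (W₁ * X ^ k).eval (z i) / ∏ j ∈ S.erase i, (z i - z j) = 0 := by
    rcases hdeg with rfl | hdeg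
    · simp
    · by_cases hW₁0 : W₁ = 0
      · simp [hW₁0]
      rw [← Lagrange.coeff_eq_sum (s := S) (v := z) hz.injOn]
      · apply coeff_eq_zero_of_natDegree_lt
        rw [natDegree_mul hW₁0 (pow_ne_zero _ X_ne_zero), natDegree_X_pow]
        omega
      · refine lt_of_le_of_lt degree_le_natDegree ?_
        rw [natDegree_mul hW₁0 (pow_ne_zero _ X_ne_zero), natDegree_X_pow]
        exact_mod_cast (by omega : W₁.natDegree + k < S.card)
  have hall : ∑ i, z i ^ k * D (z i) / y i = ∑ i ∈ S, z i ^ k * D (z i) / y i := by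
    symm
    apply Finset.sum_subset (Finset.subset_univ S)
    intro i _ hi
    have h0 : D (z i) = 0 := by
      by_contra hne
      exact hi (Finset.mem_filter.2 ⟨Finset.mem_univ _, hne⟩)
    rw [h0, mul_zero, zero_div]
  rw [hall]
  have h7 : ∑ i ∈ S, z i ^ k * D (z i) / y i =
      -2 * ∑ i ∈ S, (W₁ * X ^ k).eval (z i) / ∏ j ∈ S.erase i, (z i - z j) := by
    rw [Finset.mul_sum]
    refine Finset.sum_congr rfl fun i hi => ?_
    have h8 := hval i hi
    have h9 : (W₁ * X ^ k).eval (z i) / ∏ j ∈ S.erase i, (z i - z j) =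
        z i ^ k * (W₁.eval (z i) / ∏ j ∈ S.erase i, (z i - z j)) := by
      rw [eval_mul, eval_pow, eval_X]
      ring
    rw [h9, h8]
    have h10 : D (z i) / (2 * y i) = D (z i) / y i / 2 := by
      rw [div_div, mul_comm 2]
    rw [h10]
    ring
  rw [h7, hsum, mul_zero]

end

end Vale.Agent.P297.Gen
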