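import Vale.Agent.P297.Gen.H516.Core
import Vale.Agent.P297.Gen.Block

/-!
Relatively closed subfields, the exchange property, and extensions of embeddings.
-/

set_option linter.unusedSectionVars false
set_option linter.style.haveILetI false

open CategoryTheory AlgebraicGeometry IntermediateField Polynomial

namespace Vale.Agent.P297.Gen

open Vale.Agent.P297 Vale.Agent.P297.H839 Vale.Agent.P297.H516 Vale.Agent.P297.H878

section Clo

variable {N : Type} [Field N] [Algebra ℂ N]

/-- The relative algebraic closure of `M(S)`. -/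
noncomputable def clo (M : IntermediateField ℂ N) (S : Set N) : IntermediateField ℂ N :=
  ((algebraicClosure (IntermediateField.adjoin M S) N).restrictScalars M).restrictScalars ℂ

theorem mem_clo {M : IntermediateField ℂ N} {S : Set N} {x : N} :
    x ∈ clo M S ↔ IsAlgebraic (IntermediateField.adjoin M S) x := mem_algebraicClosure_iff

theorem clo_closed [IsAlgClosed N] (M : IntermediateField ℂ N) (S : Set N) :
    ∀ u : N, IsAlgebraic (clo M S) u → u ∈ clo M S := by
  intro x hx
  have h1 : IsAlgebraic (algebraicClosure (IntermediateField.adjoin M S) N) x := hx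
  have h2 : x ∈ algebraicClosure (algebraicClosure (IntermediateField.adjoin M S) N) N :=
    mem_algebraicClosure_iff.2 h1
  rw [algebraicClosure.algebraicClosure_eq_bot, IntermediateField.mem_bot] at h2
  obtain ⟨y, rfl⟩ := h2
  exact y.2

theorem le_clo (M : IntermediateField ℂ N) (S : Set N) : M ≤ clo M S := by
  intro x hx
  rw [mem_clo]
  exact isAlgebraic_algebraMap (algebraMap M (IntermediateField.adjoin M S) ⟨x, hx⟩)

theorem subset_clo (M : IntermediateField ℂ N) (S : Set N) : S ⊆ clo M S := by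
  intro x hx
  rw [SetLike.mem_coe, mem_clo]
  exact isAlgebraic_algebraMap
    (⟨x, IntermediateField.subset_adjoin M S hx⟩ : IntermediateField.adjoin M S)

theorem isAlgebraic_of_coeff {M : IntermediateField ℂ N} {x : N} {p : N[X]}
    (hp : ∀ n, p.coeff n ∈ M) (hp0 : p ≠ 0) (hx : p.eval x = 0) : IsAlgebraic M x := by
  obtain ⟨q, hq⟩ : ∃ q : M[X], q.map (algebraMap M N) = p := by
    have h1 : p ∈ Polynomial.lifts (algebraMap M N) := by
      rw [Polynomial.lifts_iff_coeff_lifts]
      exact fun n => ⟨⟨p.coeff n, hp n⟩, rfl⟩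
    exact (Polynomial.mem_lifts _).1 h1
  refine ⟨q, ?_, ?_⟩
  · rintro rfl
    rw [Polynomial.map_zero] at hq
    exact hp0 hq.symm
  · rw [Polynomial.aeval_def, ← Polynomial.eval_map, hq, hx]

theorem clo_le {M M' : IntermediateField ℂ N} {S : Set N} (hM' : ∀ u, IsAlgebraic M' u → u ∈ M')
    (h : M ≤ M') (hS : S ⊆ M') : clo M S ≤ M' := by
  intro x hx
  rw [mem_clo] at hx
  obtain ⟨p, hp0, hp⟩ := hx
  have hle : (IntermediateField.adjoin M S).restrictScalars ℂ ≤ M' := by
    intro u hu
    have hu' : u ∈ IntermediateField.adjoin M S := hu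
    induction hu' using IntermediateField.adjoin_induction with
    | mem x hx => exact hS hx
    | algebraMap r => exact h r.2
    | add x y hx hy h1 h2 => exact add_mem (h1 hx) (h2 hy)
    | mul x y hx hy h1 h2 => exact mul_mem (h1 hx) (h2 hy)
    | inv x hx h1 => exact inv_mem (h1 hx)
  apply hM'
  refine isAlgebraic_of_coeff (p := p.map (algebraMap _ N)) ?_ ?_ ?_
  · intro n
    rw [coeff_map]
    exact hle (p.coeff n).2
  · exact (Polynomial.map_ne_zero_iff (algebraMap (IntermediateField.adjoin M S) N).injective).2 hp0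
  · rw [Polynomial.eval_map]
    exact hp

theorem cl_iff [IsAlgClosed N] {L : IntermediateField ℂ N} {S : Set N} {x : N} :
    Cl L S x ↔ x ∈ clo L S :=
  ⟨fun h => h _ (clo_closed L S) (le_clo L S) (subset_clo L S),
    fun h _ hM hL hS => clo_le hM hL hS h⟩

theorem pair_iff' {k : Type} [Field k] [Algebra k N] (u x : N) :
    AlgebraicIndependent k ![u, x] ↔
    Transcendental k u ∧ Transcendental (IntermediateField.adjoin k {u}) x := by
  rw [IntermediateField.transcendental_adjoin_iff]
  have h1 := AlgebraicIndependent.option_iff (R := k) (x := ![u]) (a := x)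
  have h2 : Set.range ![u] = {u} := by simp
  have h5 : AlgebraicIndependent k ![u] ↔ Transcendental k u :=
    algebraicIndependent_unique_type_iff
  rw [h2, h5] at h1
  have h3 : AlgebraicIndependent k ![u, x] ↔
      AlgebraicIndependent k (fun o : Option (Fin 1) => o.elim x ![u]) := by
    rw [← algebraicIndependent_equiv (finSuccEquivLast (n := 1))]
    have h4 : (fun o : Option (Fin 1) => o.elim x ![u]) ∘ (finSuccEquivLast (n := 1)) =
        ![u, x] := by
      ext i
      fin_cases i
      · rfl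
      · rfl
    rw [h4]
  rw [h3, h1]

theorem pair_swap {k : Type} [Field k] [Algebra k N] {u x : N}
    (h : AlgebraicIndependent k ![u, x]) : AlgebraicIndependent k ![x, u] := by
  have h1 := (algebraicIndependent_equiv (R := k) (Equiv.swap (0 : Fin 2) 1)
    (f := ![x, u])).1
  apply h1
  have h2 : ![x, u] ∘ (Equiv.swap (0 : Fin 2) 1) = ![u, x] := by
    funext i
    fin_cases i <;> rfl
  rw [h2]
  exact h

/-- The exchange property. -/
theorem exchange {M : IntermediateField ℂ N} (hM : ∀ u, IsAlgebraic M u → u ∈ M) {a b : N}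
    (h1 : b ∈ clo M {a}) (h2 : b ∉ M) : a ∈ clo M {b} := by
  by_contra h3
  rw [mem_clo] at h1 h3
  have h4 : AlgebraicIndependent M ![b, a] := (pair_iff' b a).2 ⟨fun h => h2 (hM b h), h3⟩
  exact ((pair_iff' a b).1 (pair_swap h4)).2 h1

end Clo

section Ext

variable {K : Type} [Field K] [Algebra ℂ K] {N : Type} [Field N] [Algebra ℂ N] [IsAlgClosed N]

/-- All extensions of the restriction of an embedding to a subfield of finite index. -/
theorem exists_extensions (F : IntermediateField ℂ K) {n : ℕ} (hn : Module.finrank F K = n)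
    (hpos : 0 < n) (Θ : K →ₐ[ℂ] N) :
    ∃ σ : Fin n → (K →ₐ[ℂ] N), Function.Injective σ ∧ (∀ i, ∀ k ∈ F, σ i k = Θ k) ∧
      ∀ φ : K →ₐ[ℂ] N, (∀ k ∈ F, φ k = Θ k) → ∃ i, φ = σ i := by
  haveI : FiniteDimensional F K := FiniteDimensional.of_finrank_pos (by omega)
  haveI : CharZero F := charZero_of_injective_algebraMap (algebraMap ℂ F).injective
  letI : Algebra F N := (Θ.comp F.val).toRingHom.toAlgebra
  have halg : ∀ k : F, algebraMap F N k = Θ k := fun _ => rfl
  have hcard : Fintype.card (K →ₐ[F] N) = n := by rw [AlgHom.card F K N, hn]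
  let e : Fin n ≃ (K →ₐ[F] N) := (Fintype.equivFinOfCardEq hcard).symm
  have hcomm : ∀ (ψ : K →ₐ[F] N), ∀ k ∈ F, ψ k = Θ k := fun ψ k hk => ψ.commutes ⟨k, hk⟩
  let σ : Fin n → (K →ₐ[ℂ] N) := fun i =>
    { (e i).toRingHom with
      commutes' := fun r => by
        change e i (algebraMap ℂ K r) = _
        rw [hcomm (e i) _ (F.algebraMap_mem r), AlgHom.commutes] }
  have hσ : ∀ i k, σ i k = e i k := fun _ _ => rfl
  refine ⟨σ, ?_, fun i k hk => by rw [hσ]; exact hcomm _ k hk, ?_⟩
  · intro i j hij
    apply e.injective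
    apply AlgHom.ext
    intro k
    rw [← hσ, ← hσ, hij]
  · intro φ hφ
    let ψ : K →ₐ[F] N := { φ.toRingHom with commutes' := fun k => hφ k k.2 }
    refine ⟨e.symm ψ, ?_⟩
    apply AlgHom.ext
    intro k
    rw [hσ, Equiv.apply_symm_apply]
    rfl

/-- Two embeddings that agree on a subfield of finite index have the same closure. -/
theorem mem_of_agree {F : IntermediateField ℂ K} [FiniteDimensional F K] {M : IntermediateField ℂ N}
    (hM : ∀ u, IsAlgebraic M u → u ∈ M) {φ φ' : K →ₐ[ℂ] N} (h : ∀ k ∈ F, φ' k = φ k)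
    (hφ : ∀ k ∈ F, φ k ∈ M) (k : K) : φ' k ∈ M := by
  obtain ⟨p, hp0, hp⟩ := Algebra.IsAlgebraic.isAlgebraic (R := F) k
  apply hM
  let g : F →+* N := φ'.toRingHom.comp F.val.toRingHom
  refine isAlgebraic_of_coeff (p := p.map g) ?_ ?_ ?_
  · intro n
    rw [coeff_map]
    change φ' (p.coeff n : K) ∈ M
    rw [h _ (p.coeff n).2]
    exact hφ _ (p.coeff n).2
  · exact (Polynomial.map_ne_zero_iff g.injective).2 hp0
  · rw [Polynomial.eval_map]
    have h1 := Polynomial.hom_eval₂ p (algebraMap F K) φ'.toRingHom k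
    refine h1.symm.trans ?_
    rw [← Polynomial.aeval_def, hp]
    exact map_zero φ'

theorem Pencil.range_mem {l x y : K} {f : (IntermediateField.adjoin ℂ {l})[X]}
    (h : Pencil l x y f) {M : IntermediateField ℂ N} (hM : ∀ u, IsAlgebraic M u → u ∈ M)
    {φ : K →ₐ[ℂ] N} (hl : φ l ∈ M) (hx : φ x ∈ M) (k : K) : φ k ∈ M := by
  have hC : ∀ e ∈ IntermediateField.adjoin ℂ (Set.range ![l, x]), φ e ∈ M := by
    have h1 : (IntermediateField.adjoin ℂ (Set.range ![l, x])).map φ ≤ M := by
      rw [IntermediateField.adjoin_map, IntermediateField.adjoin_le_iff]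
      rintro _ ⟨_, ⟨i, rfl⟩, rfl⟩
      fin_cases i
      · exact hl
      · exact hx
    exact fun e he => h1 ⟨e, he, rfl⟩
  have hy : φ y ∈ M := by
    apply hM
    refine isAlgebraic_of_coeff (p := X ^ 2 - C (φ (y ^ 2))) ?_ ?_ ?_
    · intro n
      rw [coeff_sub, coeff_X_pow, coeff_C]
      refine sub_mem ?_ ?_
      · split_ifs
        · exact one_mem _
        · exact zero_mem _
      · split_ifs
        · exact hC _ h.sq_mem
        · exact zero_mem _
    · exact (monic_X_pow_sub_C _ two_ne_zero).ne_zero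
    · rw [eval_sub, eval_pow, eval_X, eval_C, map_pow, sub_self]
  obtain ⟨a, ha, b, hb, rfl⟩ := h.span k
  rw [map_add, map_mul]
  exact add_mem (hC a ha) (mul_mem (hC b hb) hy)

theorem Pencil.ext {l x y : K} {f : (IntermediateField.adjoin ℂ {l})[X]}
    (h : Pencil l x y f) {φ ψ : K →ₐ[ℂ] N} (hl : φ l = ψ l) (hx : φ x = ψ x) (hy : φ y = ψ y) :
    φ = ψ := by
  apply AlgHom.ext
  intro k
  have hk : k ∈ IntermediateField.adjoin ℂ ({l, x, y} : Set K) := by
    rw [h.top]
    trivial
  induction hk using IntermediateField.adjoin_induction with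
  | mem x hx' =>
    rcases hx' with rfl | rfl | rfl
    · exact hl
    · exact hx
    · exact hy
  | algebraMap r => rw [AlgHom.commutes, AlgHom.commutes]
  | add x y _ _ h1 h2 => rw [map_add, map_add, h1, h2]
  | mul x y _ _ h1 h2 => rw [map_mul, map_mul, h1, h2]
  | inv x _ h1 => rw [map_inv₀, map_inv₀, h1]

end Ext

end Vale.Agent.P297.Gen
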