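import Vale.Agent.P297.MathlibUsed
import Mathlib.RingTheory.Smooth.Field
import Mathlib.Algebra.TrivSqZeroExt.Basic

/-!
Derivations of algebraically closed fields.
-/

set_option linter.unusedSectionVars false
set_option linter.style.haveILetI false

open Polynomial IntermediateField

namespace Vale.Agent.P297.Gen

/-- The dual numbers over `N`. -/
def Dv (N : Type) [Field N] : Type := TrivSqZeroExt N N

noncomputable instance (N : Type) [Field N] : CommRing (Dv N) :=
  inferInstanceAs (CommRing (TrivSqZeroExt N N))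

/-- The projection of the dual numbers. -/
noncomputable def fstD (N : Type) [Field N] : Dv N →+* N :=
  (TrivSqZeroExt.fstHom ℤ N N).toRingHom

/-- The second component. -/
def sndD (N : Type) [Field N] (x : Dv N) : N := TrivSqZeroExt.snd (R := N) (M := N) x

/-- The identification. -/
def toDv (N : Type) [Field N] : TrivSqZeroExt N N ≃+* Dv N := RingEquiv.refl _

theorem fstD_toDv (N : Type) [Field N] (x : TrivSqZeroExt N N) :
    fstD N (toDv N x) = TrivSqZeroExt.fst x := rfl

theorem sndD_toDv (N : Type) [Field N] (x : TrivSqZeroExt N N) :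
    sndD N (toDv N x) = TrivSqZeroExt.snd x := rfl

theorem sndD_add (N : Type) [Field N] (x y : Dv N) : sndD N (x + y) = sndD N x + sndD N y := rfl

theorem sndD_mul (N : Type) [Field N] (x y : Dv N) :
    sndD N (x * y) = fstD N x * sndD N y + fstD N y * sndD N x := by
  have h := TrivSqZeroExt.snd_mul (R := N) (M := N) x y
  rw [smul_eq_mul, MulOpposite.smul_eq_mul_unop, MulOpposite.unop_op] at h
  refine h.trans ?_
  rw [mul_comm (TrivSqZeroExt.snd (R := N) (M := N) x)]
  rfl

theorem eq_zero_D (N : Type) [Field N] {x : Dv N} (h1 : fstD N x = 0) (h2 : sndD N x = 0) :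
    x = 0 := TrivSqZeroExt.ext (R := N) (M := N) h1 h2

variable {N : Type} [Field N] [Algebra ℂ N] [IsAlgClosed N]

/-- A derivation over `M` that does not vanish at a given element. -/
theorem exists_derivation (M : IntermediateField ℂ N) {w : N} (hw : ¬ IsAlgebraic M w) :
    ∃ D : Derivation ℤ N N, (∀ x ∈ M, D x = 0) ∧ D w = 1 := by
  haveI : CharZero M := charZero_of_injective_algebraMap (algebraMap ℂ M).injective
  have hind : AlgebraicIndependent M (fun _ : Unit => w) :=
    (algebraicIndependent_unique_type_iff).2 hw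
  let F : IntermediateField M N := IntermediateField.adjoin M (Set.range fun _ : Unit => w)
  haveI : CharZero F := charZero_of_injective_algebraMap (algebraMap M F).injective
  have hwF : w ∈ F := IntermediateField.subset_adjoin _ _ ⟨(), rfl⟩
  -- the point with values in the dual numbers
  let s' : Unit → TrivSqZeroExt N N := fun _ => TrivSqZeroExt.inl w + TrivSqZeroExt.inr 1
  have hcomp : (TrivSqZeroExt.fstHom M N N).comp (MvPolynomial.aeval s') =
      (MvPolynomial.aeval (fun _ : Unit => w) : MvPolynomial Unit M →ₐ[M] N) := by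
    apply MvPolynomial.algHom_ext
    intro i
    simp [s']
  have hu : ∀ p : MvPolynomial Unit M, p ≠ 0 →
      IsUnit (MvPolynomial.aeval s' p : TrivSqZeroExt N N) := by
    intro p hp
    rw [TrivSqZeroExt.isUnit_iff_isUnit_fst, isUnit_iff_ne_zero]
    have h1 : TrivSqZeroExt.fst (MvPolynomial.aeval s' p : TrivSqZeroExt N N) =
        MvPolynomial.aeval (fun _ : Unit => w) p :=
      congrArg (fun ψ : MvPolynomial Unit M →ₐ[M] N => ψ p) hcomp
    rw [h1]
    intro h0
    exact hp (hind.eq_zero_of_aeval_eq_zero p h0)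
  let φ₀ : FractionRing (MvPolynomial Unit M) →ₐ[M] TrivSqZeroExt N N :=
    IsLocalization.liftAlgHom (M := nonZeroDivisors (MvPolynomial Unit M))
      (f := (MvPolynomial.aeval s' : MvPolynomial Unit M →ₐ[M] TrivSqZeroExt N N))
      (fun y => hu y (nonZeroDivisors.ne_zero y.2))
  have hφ₀ : ∀ p, φ₀ (algebraMap (MvPolynomial Unit M) _ p) = MvPolynomial.aeval s' p := fun p =>
    IsLocalization.lift_eq _ p
  let φ : F →ₐ[M] TrivSqZeroExt N N := φ₀.comp hind.aevalEquivField.symm.toAlgHom
  have hφw : φ ⟨w, hwF⟩ = TrivSqZeroExt.inl w + TrivSqZeroExt.inr 1 := by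
    have h1 : hind.aevalEquivField (algebraMap (MvPolynomial Unit M)
        (FractionRing (MvPolynomial Unit M)) (MvPolynomial.X ())) = ⟨w, hwF⟩ := by
      apply Subtype.ext
      rw [AlgebraicIndependent.aevalEquivField_algebraMap_apply_coe, MvPolynomial.aeval_X]
    change φ₀ (hind.aevalEquivField.symm _) = _
    rw [← h1, AlgEquiv.symm_apply_apply, hφ₀, MvPolynomial.aeval_X]
  have hfst : ∀ x : F, TrivSqZeroExt.fst (φ x) = x := by
    have h2 : ((TrivSqZeroExt.fstHom M N N).comp φ₀).toRingHom =
        (F.val.comp hind.aevalEquivField.toAlgHom).toRingHom := by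
      apply IsLocalization.ringHom_ext (nonZeroDivisors (MvPolynomial Unit M))
      apply RingHom.ext
      intro p
      change TrivSqZeroExt.fst (φ₀ (algebraMap (MvPolynomial Unit M) _ p)) =
        ((hind.aevalEquivField (algebraMap (MvPolynomial Unit M) _ p) : F) : N)
      rw [hφ₀, AlgebraicIndependent.aevalEquivField_algebraMap_apply_coe]
      exact congrArg (fun ψ : MvPolynomial Unit M →ₐ[M] N => ψ p) hcomp
    intro x
    have h3 := congrArg (fun ψ => ψ (hind.aevalEquivField.symm x)) h2
    have h4 : TrivSqZeroExt.fst (φ₀ (hind.aevalEquivField.symm x)) =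
        ((hind.aevalEquivField (hind.aevalEquivField.symm x) : F) : N) := h3
    rw [AlgEquiv.apply_symm_apply] at h4
    exact h4
  letI : Algebra F (Dv N) := ((toDv N).toRingHom.comp φ.toRingHom).toAlgebra
  have halg : ∀ x : F, algebraMap F (Dv N) x = toDv N (φ x) := fun _ => rfl
  let g : Dv N →ₐ[F] N :=
    { fstD N with
      commutes' := fun x => by
        change fstD N (algebraMap F (Dv N) x) = _
        rw [halg, fstD_toDv, hfst]
        rfl }
  have hg : ∀ x, g x = fstD N x := fun _ => rfl
  have hsurj : Function.Surjective g := fun x => ⟨toDv N (TrivSqZeroExt.inl x), rfl⟩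
  have hnil : IsNilpotent (RingHom.ker (g : Dv N →+* N)) := by
    refine ⟨2, ?_⟩
    rw [pow_two, Ideal.zero_eq_bot, eq_bot_iff, Ideal.mul_le]
    intro x hx y hy
    rw [RingHom.mem_ker] at hx hy
    rw [Ideal.mem_bot]
    have hx' : fstD N x = 0 := hx
    have hy' : fstD N y = 0 := hy
    apply eq_zero_D
    · rw [map_mul, hx', zero_mul]
    · rw [sndD_mul, hx', hy', zero_mul, zero_mul, add_zero]
  haveI : Algebra.FormallySmooth F N := by
    obtain ⟨κ, v, hv⟩ := exists_isTranscendenceBasis' F (A := N)
    haveI := hv.isAlgebraic_field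
    haveI : CharZero (IntermediateField.adjoin F (Set.range v)) :=
      charZero_of_injective_algebraMap (algebraMap F _).injective
    haveI : Algebra.IsSeparable (IntermediateField.adjoin F (Set.range v)) N := inferInstance
    exact Algebra.FormallySmooth.of_algebraicIndependent_of_isSeparable hv.1
  let ψ : N →ₐ[F] Dv N := Algebra.FormallySmooth.liftOfSurjective (AlgHom.id F N) g hsurj hnil
  have hψ : ∀ x, fstD N (ψ x) = x := fun x =>
    Algebra.FormallySmooth.liftOfSurjective_apply (AlgHom.id F N) g hsurj hnil x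
  have hadd : ∀ x y, sndD N (ψ (x + y)) = sndD N (ψ x) + sndD N (ψ y) := by
    intro x y
    rw [map_add, sndD_add]
  have hmul : ∀ x y, sndD N (ψ (x * y)) = x • sndD N (ψ y) + y • sndD N (ψ x) := by
    intro x y
    rw [map_mul, sndD_mul, hψ, hψ]
    rfl
  let D : Derivation ℤ N N := Derivation.mk'
    (AddMonoidHom.mk' (fun x => sndD N (ψ x)) hadd).toIntLinearMap hmul
  have hD : ∀ x, D x = sndD N (ψ x) := fun _ => rfl
  have hF : ∀ x : F, D x = TrivSqZeroExt.snd (φ x) := by
    intro x
    have h6 : ψ (x : N) = algebraMap F (Dv N) x := ψ.commutes x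
    rw [hD, h6, halg, sndD_toDv]
  refine ⟨D, ?_, ?_⟩
  · intro x hx
    have h7 : D ((algebraMap M F ⟨x, hx⟩ : F) : N) = 0 := by
      rw [hF, AlgHom.commutes]
      exact TrivSqZeroExt.snd_inl N _
    exact h7
  · have h8 := hF ⟨w, hwF⟩
    rw [hφw] at h8
    rw [h8]
    simp

end Vale.Agent.P297.Gen
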