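import Vale.Agent.P297.Gen.Abel
import Vale.Agent.P297.Gen.Der

/-!
The residual points determine the two fibres up to algebraic dependence.
-/

set_option linter.unusedSectionVars false
set_option linter.style.haveILetI false

open Polynomial IntermediateField

namespace Vale.Agent.P297.Gen

variable {N : Type} [Field N] [Algebra ℂ N] [IsAlgClosed N]

theorem dom {ι₁ ι₂ : Type} [Fintype ι₁] [Fintype ι₂] [Nonempty ι₁] [Nonempty ι₂]
    {z₁ y₁ : ι₁ → N} {z₂ y₂ : ι₂ → N} (L M : IntermediateField ℂ N) (hLM : L ≤ M)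
    (hM : ∀ x, IsAlgebraic M x → x ∈ M) {f α β Q : N[X]} (hf : ∀ n, f.coeff n ∈ L)
    (hsq : Squarefree f) (hdeg : 5 ≤ f.natDegree) (hz : Function.Injective (Sum.elim z₁ z₂))
    (hy₁ : ∀ i, y₁ i ^ 2 = f.eval (z₁ i)) (hy₂ : ∀ i, y₂ i ^ 2 = f.eval (z₂ i))
    (hD₁ : ∀ D : Derivation ℤ N N, (∀ x ∈ L, D x = 0) →
      ∀ i j, D (z₁ i) / y₁ i = D (z₁ j) / y₁ j)
    (hs₁ : ∑ i, z₁ i = 0)
    (hD₂ : ∀ D : Derivation ℤ N N, (∀ x ∈ L, D x = 0) →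
      ∀ i j, z₂ i * D (z₂ i) / y₂ i = z₂ j * D (z₂ j) / y₂ j)
    (hs₂ : ∑ i, (z₂ i)⁻¹ = 0)
    (hn₁ : ∀ i, y₁ i ≠ 0) (hn₂ : ∀ i, y₂ i ≠ 0) (hz₂ : ∀ i, z₂ i ≠ 0)
    (hG₁ : ∀ i, α.eval (z₁ i) + β.eval (z₁ i) * y₁ i = 0)
    (hG₂ : ∀ i, α.eval (z₂ i) + β.eval (z₂ i) * y₂ i = 0) (hQ0 : Q ≠ 0)
    (hN : α ^ 2 - β ^ 2 * f = (∏ i : ι₁ ⊕ ι₂, (X - C (Sum.elim z₁ z₂ i))) * Q)
    (hQ : ∀ r, Q.IsRoot r → r ∈ M) : (∀ i, z₁ i ∈ M) ∧ (∀ i, z₂ i ∈ M) := by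
  haveI : CharZero N := charZero_of_injective_algebraMap (algebraMap ℂ N).injective
  have key : ∀ D : Derivation ℤ N N, (∀ x ∈ M, D x = 0) →
      (∀ i, D (z₁ i) = 0) ∧ (∀ i, D (z₂ i) = 0) := by
    intro D hD
    have hDL : ∀ x ∈ L, D x = 0 := fun x hx => hD x (hLM hx)
    have hab : ∀ k, k < 2 → ∑ i, Sum.elim z₁ z₂ i ^ k * D (Sum.elim z₁ z₂ i) /
        Sum.elim y₁ y₂ i = 0 := fun k hk =>
      abel D (fun n => hDL _ (hf n)) hsq (g := 2) hdeg hz (by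
        rintro (i | i)
        · exact hy₁ i
        · exact hy₂ i) (by
        rintro (i | i)
        · exact hG₁ i
        · exact hG₂ i) hQ0 hN (fun r hr => hD r (hQ r hr)) hk
    have h0 := hab 0 (by norm_num)
    have h1 := hab 1 (by norm_num)
    rw [Fintype.sum_sum_type] at h0 h1
    simp only [Sum.elim_inl, Sum.elim_inr, pow_zero, one_mul, pow_one] at h0 h1
    obtain ⟨i₁⟩ := ‹Nonempty ι₁›
    obtain ⟨i₂⟩ := ‹Nonempty ι₂›
    set e₁ := D (z₁ i₁) / y₁ i₁ with he₁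
    set e₂ := z₂ i₂ * D (z₂ i₂) / y₂ i₂ with he₂
    have g1 : ∀ i, D (z₁ i) / y₁ i = e₁ := fun i => hD₁ D hDL i i₁
    have g2 : ∀ i, z₂ i * D (z₂ i) / y₂ i = e₂ := fun i => hD₂ D hDL i i₂
    have a1 : ∑ i, D (z₁ i) / y₁ i = Fintype.card ι₁ * e₁ := by
      rw [Finset.sum_congr rfl fun i _ => g1 i, Finset.sum_const, nsmul_eq_mul]
      rfl
    have a2 : ∑ i, D (z₂ i) / y₂ i = 0 := by
      have h2 : ∀ i, D (z₂ i) / y₂ i = (z₂ i)⁻¹ * e₂ := by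
        intro i
        rw [← g2 i]
        have := hz₂ i
        field_simp
      rw [Finset.sum_congr rfl fun i _ => h2 i, ← Finset.sum_mul, hs₂, zero_mul]
    have b1 : ∑ i, z₁ i * D (z₁ i) / y₁ i = 0 := by
      have h2 : ∀ i, z₁ i * D (z₁ i) / y₁ i = z₁ i * e₁ := by
        intro i
        rw [← g1 i, mul_div_assoc]
      rw [Finset.sum_congr rfl fun i _ => h2 i, ← Finset.sum_mul, hs₁, zero_mul]
    have b2 : ∑ i, z₂ i * D (z₂ i) / y₂ i = Fintype.card ι₂ * e₂ := by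
      rw [Finset.sum_congr rfl fun i _ => g2 i, Finset.sum_const, nsmul_eq_mul]
      rfl
    rw [a1, a2, add_zero] at h0
    rw [b1, b2, zero_add] at h1
    haveI : Nonempty ι₁ := ⟨i₁⟩
    haveI : Nonempty ι₂ := ⟨i₂⟩
    have c1 : (Fintype.card ι₁ : N) ≠ 0 := Nat.cast_ne_zero.2 Fintype.card_ne_zero
    have c2 : (Fintype.card ι₂ : N) ≠ 0 := Nat.cast_ne_zero.2 Fintype.card_ne_zero
    have d1 : e₁ = 0 := (mul_eq_zero.1 h0).resolve_left c1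
    have d2 : e₂ = 0 := (mul_eq_zero.1 h1).resolve_left c2
    refine ⟨fun i => ?_, fun i => ?_⟩
    · have h3 := g1 i
      rw [d1, div_eq_zero_iff] at h3
      exact h3.resolve_right (hn₁ i)
    · have h3 := g2 i
      rw [d2, div_eq_zero_iff] at h3
      exact ((mul_eq_zero.1 (h3.resolve_right (hn₂ i)))).resolve_left (hz₂ i)
  have hmem : ∀ x : N, (∀ D : Derivation ℤ N N, (∀ u ∈ M, D u = 0) → D x = 0) → x ∈ M := by
    intro x hx
    by_contra hxM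
    obtain ⟨D, hD, hDx⟩ := exists_derivation M (w := x) (fun h => hxM (hM x h))
    have := hx D hD
    rw [hDx] at this
    exact one_ne_zero this
  exact ⟨fun i => hmem _ fun D hD => (key D hD).1 i, fun i => hmem _ fun D hD => (key D hD).2 i⟩

end Vale.Agent.P297.Gen
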