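import Vale.Agent.P297.Gen.Block

/-!
The points of a pencil over a generic point of a quotient.
-/

set_option linter.unusedSectionVars false
set_option linter.style.haveILetI false

open CategoryTheory AlgebraicGeometry IntermediateField Polynomial

namespace Vale.Agent.P297.Gen

open Vale.Agent.P297 Vale.Agent.P297.H839 Vale.Agent.P297.H516 Vale.Agent.P297.H878

section Roots

variable {N : Type} [Field N] [Algebra ℂ N] [IsAlgClosed N]

theorem eval_mem (L : IntermediateField ℂ N) {p : N[X]} (hp : ∀ n, p.coeff n ∈ L) {z : N}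
    (hz : z ∈ L) : p.eval z ∈ L := by
  rw [Polynomial.eval_eq_sum_range]
  exact sum_mem fun i _ => mul_mem (hp i) (pow_mem hz i)

theorem root_mem (L : IntermediateField ℂ N) (hL : ∀ x, IsAlgebraic L x → x ∈ L) {p : N[X]}
    (hp : ∀ n, p.coeff n ∈ L) (hp0 : p ≠ 0) {z : N} (hz : p.eval z = 0) : z ∈ L := by
  obtain ⟨q, hq⟩ : ∃ q : L[X], q.map (algebraMap L N) = p := by
    have h1 : p ∈ Polynomial.lifts (algebraMap L N) := by
      rw [Polynomial.lifts_iff_coeff_lifts]
      exact fun n => ⟨⟨p.coeff n, hp n⟩, rfl⟩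
    exact (Polynomial.mem_lifts _).1 h1
  refine hL z ⟨q, ?_, ?_⟩
  · rintro rfl
    rw [Polynomial.map_zero] at hq
    exact hp0 hq.symm
  · rw [Polynomial.aeval_def, ← Polynomial.eval_map, hq, hz]

/-- The generic fibre of `P/Q`. -/
theorem exists_fibre (L : IntermediateField ℂ N) (hL : ∀ x, IsAlgebraic L x → x ∈ L)
    {P Q : N[X]} (hP : ∀ n, P.coeff n ∈ L) (hQ : ∀ n, Q.coeff n ∈ L) {n : ℕ} (hn : 1 ≤ n)
    (hPn : P.natDegree ≤ n) (hQn : Q.natDegree ≤ n) (hlead : P.coeff n ≠ 0 ∨ Q.coeff n ≠ 0)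
    (hcop : IsCoprime P Q) {w : N} (hw : w ∉ L) :
    ∃ (a : N) (z : Fin n → N), a ≠ 0 ∧ Function.Injective z ∧
      P - C w * Q = C a * ∏ i, (X - C (z i)) ∧ (∀ i, z i ∉ L) ∧ (∀ i, Q.eval (z i) ≠ 0) ∧
      (∀ i, P.eval (z i) = w * Q.eval (z i)) ∧
      (∀ i, (derivative P * Q - P * derivative Q).eval (z i) ≠ 0) := by
  classical
  haveI : CharZero N := charZero_of_injective_algebraMap (algebraMap ℂ N).injective
  set A := P - C w * Q with hA
  have hAn : A.coeff n ≠ 0 := by
    rw [hA, coeff_sub, coeff_C_mul]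
    intro h0
    by_cases hq : Q.coeff n = 0
    · rw [hq, mul_zero, sub_zero] at h0
      rcases hlead with h | h
      · exact h h0
      · exact h hq
    · apply hw
      have h1 : w = P.coeff n / Q.coeff n := by
        rw [eq_div_iff hq]
        linear_combination - h0
      rw [h1]
      exact div_mem (hP n) (hQ n)
  have hA0 : A ≠ 0 := by
    intro h0
    rw [h0, Polynomial.coeff_zero] at hAn
    exact hAn rfl
  have hdeg : A.natDegree = n := by
    apply le_antisymm
    · refine (natDegree_sub_le _ _).trans (max_le hPn ?_)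
      exact (natDegree_C_mul_le _ _).trans hQn
    · exact le_natDegree_of_ne_zero hAn
  have hcopz : ∀ z : N, ¬ (P.eval z = 0 ∧ Q.eval z = 0) := by
    rintro z ⟨h1, h2⟩
    obtain ⟨u, v, huv⟩ := hcop
    have h3 := congrArg (fun p : N[X] => p.eval z) huv
    simp only [eval_add, eval_mul, h1, h2, mul_zero, add_zero, eval_one] at h3
    exact zero_ne_one h3
  have hroot : ∀ z, A.eval z = 0 → P.eval z = w * Q.eval z ∧ Q.eval z ≠ 0 ∧ z ∉ L := by
    intro z hz
    rw [hA, eval_sub, eval_mul, eval_C] at hz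
    have h1 : P.eval z = w * Q.eval z := by linear_combination hz
    have h2 : Q.eval z ≠ 0 := by
      intro h0
      rw [h0, mul_zero] at h1
      exact hcopz z ⟨h1, h0⟩
    refine ⟨h1, h2, fun hzL => hw ?_⟩
    have h3 : w = P.eval z / Q.eval z := by
      rw [eq_div_iff h2]
      exact h1.symm
    rw [h3]
    exact div_mem (eval_mem L hP hzL) (eval_mem L hQ hzL)
  -- the derivative of `P/Q`
  set J := derivative P * Q - P * derivative Q with hJ
  have hJ0 : J ≠ 0 := by
    intro h0
    have h1 : derivative P * Q = P * derivative Q := by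
      rw [← sub_eq_zero]
      exact h0
    have h2 : P ∣ derivative P := by
      refine hcop.dvd_of_dvd_mul_right ?_
      rw [h1]
      exact dvd_mul_right _ _
    have h3 : Q ∣ derivative Q := by
      refine hcop.symm.dvd_of_dvd_mul_left ?_
      rw [← h1]
      exact dvd_mul_left _ _
    have h4 : P.natDegree = 0 := by
      by_contra hne
      have h5 : derivative P ≠ 0 := fun h => hne (derivative_eq_zero.1 h)
      exact absurd (natDegree_le_of_dvd h2 h5) (not_le.2 (natDegree_derivative_lt hne))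
    have h4' : Q.natDegree = 0 := by
      by_contra hne
      have h5 : derivative Q ≠ 0 := fun h => hne (derivative_eq_zero.1 h)
      exact absurd (natDegree_le_of_dvd h3 h5) (not_le.2 (natDegree_derivative_lt hne))
    rcases hlead with h | h
    · exact h (coeff_eq_zero_of_natDegree_lt (by omega))
    · exact h (coeff_eq_zero_of_natDegree_lt (by omega))
  have hder : ∀ (p : N[X]), (∀ n, p.coeff n ∈ L) → ∀ n, (derivative p).coeff n ∈ L := by
    intro p hp n
    rw [coeff_derivative]
    exact mul_mem (hp _) (add_mem (_root_.natCast_mem L n) (one_mem L))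
  have hmulL : ∀ (p q : N[X]), (∀ n, p.coeff n ∈ L) → (∀ n, q.coeff n ∈ L) →
      ∀ n, (p * q).coeff n ∈ L := by
    intro p q hp hq n
    rw [coeff_mul]
    exact sum_mem fun i _ => mul_mem (hp _) (hq _)
  have hJL : ∀ n, J.coeff n ∈ L := by
    intro n
    rw [hJ, coeff_sub]
    exact sub_mem (hmulL _ _ (hder P hP) hQ n) (hmulL _ _ hP (hder Q hQ) n)
  have hJz : ∀ z, z ∉ L → J.eval z ≠ 0 := fun z hz h0 => hz (root_mem L hL hJL hJ0 h0)
  have hnodup : A.roots.Nodup := by
    rw [nodup_roots_iff_of_splits hA0 (IsAlgClosed.splits A)]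
    rw [separable_def]
    apply isCoprime_of_dvd
    · rintro ⟨h, -⟩
      exact hA0 h
    · intro p hp hp0 h1 h2
      have h3 : p.degree ≠ 0 := by
        intro h3
        exact hp (isUnit_iff_degree_eq_zero.2 h3)
      obtain ⟨z, hz⟩ := IsAlgClosed.exists_root p h3
      have h4 : A.eval z = 0 := (hz.dvd h1)
      have h5 : (derivative A).eval z = 0 := (hz.dvd h2)
      obtain ⟨h6, h7, h8⟩ := hroot z h4
      apply hJz z h8
      have h9 : (derivative A).eval z = (derivative P).eval z - w * (derivative Q).eval z := by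
        rw [hA, derivative_sub, derivative_C_mul, eval_sub, eval_mul, eval_C]
      rw [h9] at h5
      rw [hJ, eval_sub, eval_mul, eval_mul, h6]
      linear_combination Q.eval z * h5
  have hcard : A.roots.toFinset.card = n := by
    rw [Multiset.toFinset_card_of_nodup hnodup, ← hdeg]
    exact (splits_iff_card_roots.1 (IsAlgClosed.splits A))
  let e : Fin n ≃ A.roots.toFinset := (Finset.equivFinOfCardEq hcard).symm
  have hez : ∀ i, A.eval (e i : N) = 0 := fun i =>
    (mem_roots hA0).1 (Multiset.mem_toFinset.1 (e i).2)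
  refine ⟨A.leadingCoeff, fun i => (e i : N), leadingCoeff_ne_zero.2 hA0,
    Subtype.val_injective.comp e.injective, ?_, fun i => (hroot _ (hez i)).2.2,
    fun i => (hroot _ (hez i)).2.1, fun i => (hroot _ (hez i)).1,
    fun i => hJz _ (hroot _ (hez i)).2.2⟩
  have h1 := (IsAlgClosed.splits A).eq_prod_roots
  have h2 : (A.roots.map fun a => X - C a).prod = ∏ i, (X - C (e i : N)) := by
    have h3 : (A.roots.map fun a => X - C a).prod = ∏ r ∈ A.roots.toFinset, (X - C r) := by
      rw [Finset.prod_eq_multiset_prod, Multiset.toFinset_val, hnodup.dedup]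
    rw [h3, ← Finset.prod_coe_sort]
    exact (e.prod_comp (fun r => X - C (r : N))).symm
  rw [h2] at h1
  exact h1

theorem sum_roots_zero {P Q : N[X]} {n : ℕ} (hn : 1 ≤ n) {w a : N} {z : Fin n → N} (ha : a ≠ 0)
    (h : P - C w * Q = C a * ∏ i, (X - C (z i))) (hP : P.coeff (n - 1) = 0)
    (hQ : Q.coeff (n - 1) = 0) : ∑ i, z i = 0 := by
  have h1 := congrArg (fun p : N[X] => p.coeff (n - 1)) h
  simp only [coeff_sub, coeff_C_mul, hP, hQ, mul_zero, sub_zero] at h1
  have h2 := Polynomial.prod_X_sub_C_coeff_card_pred (Finset.univ : Finset (Fin n)) z (by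
    rw [Finset.card_univ, Fintype.card_fin]
    omega)
  rw [Finset.card_univ, Fintype.card_fin] at h2
  rw [h2] at h1
  have h3 := (mul_eq_zero.1 h1.symm).resolve_left ha
  exact neg_eq_zero.1 h3

theorem sum_inv_zero {P Q : N[X]} {n : ℕ} {w a : N} {z : Fin n → N} (ha : a ≠ 0)
    (hz : ∀ i, z i ≠ 0) (h : P - C w * Q = C a * ∏ i, (X - C (z i))) (hP : P.coeff 1 = 0)
    (hQ : Q.coeff 1 = 0) : ∑ i, (z i)⁻¹ = 0 := by
  classical
  have h1 : (derivative (P - C w * Q)).eval 0 = 0 := by
    rw [← coeff_zero_eq_eval_zero, coeff_derivative]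
    simp [hP, hQ]
  rw [h, derivative_C_mul, derivative_prod_finset, eval_mul, eval_C, eval_finsetSum] at h1
  have h2 := (mul_eq_zero.1 h1).resolve_left ha
  have h3 : ∀ i ∈ (Finset.univ : Finset (Fin n)),
      ((∏ j ∈ Finset.univ.erase i, (X - C (z j))) * derivative (X - C (z i))).eval 0 =
      - (∏ j, (0 - z j)) * (z i)⁻¹ := by
    intro i _
    rw [derivative_X_sub_C, mul_one, eval_prod, ← Finset.mul_prod_erase Finset.univ
      (fun j => 0 - z j) (Finset.mem_univ i)]
    simp only [eval_sub, eval_X, eval_C]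
    have := hz i
    field_simp
    ring
  rw [Finset.sum_congr rfl h3, ← Finset.mul_sum] at h2
  refine (mul_eq_zero.1 h2).resolve_left ?_
  refine neg_ne_zero.2 (Finset.prod_ne_zero_iff.2 ?_)
  intro i _
  rw [zero_sub]
  exact neg_ne_zero.2 (hz i)

theorem der_fibre (L : IntermediateField ℂ N) {P Q : N[X]} (hP : ∀ n, P.coeff n ∈ L)
    (hQ : ∀ n, Q.coeff n ∈ L) {w z : N} (hz : P.eval z = w * Q.eval z) (hQz : Q.eval z ≠ 0)
    (D : Derivation ℤ N N) (hD : ∀ x ∈ L, D x = 0) :
    D z * ((derivative P * Q - P * derivative Q).eval z / Q.eval z ^ 2) = D w := by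
  have hdc : ∀ p : N[X], (∀ n, p.coeff n ∈ L) → D (p.eval z) = p.derivative.eval z * D z := by
    intro p hp
    rw [dc_eval]
    have h1 : dc D p = 0 := by
      ext n
      rw [coeff_dc, hD _ (hp n), Polynomial.coeff_zero]
    rw [h1, eval_zero, zero_add]
  have h1 := congrArg D hz
  rw [hdc P hP, Derivation.leibniz, hdc Q hQ, smul_eq_mul, smul_eq_mul] at h1
  rw [eval_sub, eval_mul, eval_mul, hz]
  field_simp
  linear_combination h1

end Roots

end Vale.Agent.P297.Gen
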