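import Vale.Agent.P297.Gen.Sys
import Vale.Agent.P297.Gen.H516.Asm

/-!
Zero-cycles on pencils of curves of genus two with split Jacobian.
-/

set_option linter.unusedSectionVars false
set_option linter.style.haveILetI false

open CategoryTheory AlgebraicGeometry IntermediateField Polynomial

namespace Vale.Agent.P297.Gen

open Vale.Agent.P297 Vale.Agent.P297.H839 Vale.Agent.P297.H516 Vale.Agent.P297.H878

open scoped IntermediateField.algebraAdjoinAdjoin in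
theorem Big.trdeg {N : Type} [Field N] [Algebra ℂ N] [IsAlgClosed N] {u : Fin 3 → N}
    (hu : Big N u) : Algebra.trdeg ℂ N ≤ 3 := by
  haveI h1 : Algebra.IsAlgebraic (IntermediateField.adjoin ℂ (Set.range u)) N := by
    refine ⟨fun v => ?_⟩
    have h2 := hu.all (cl0 (Set.range u)) (cl0_closed _) (fun i => subset_cl0 _ ⟨i, rfl⟩) v
    exact mem_cl0.1 h2
  haveI : Algebra.IsAlgebraic (Algebra.adjoin ℂ (Set.range u))
      (IntermediateField.adjoin ℂ (Set.range u)) :=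
    IsLocalization.isAlgebraic _ (nonZeroDivisors (Algebra.adjoin ℂ (Set.range u)))
  haveI : Algebra.IsAlgebraic (Algebra.adjoin ℂ (Set.range u)) N :=
    Algebra.IsAlgebraic.trans _ (IntermediateField.adjoin ℂ (Set.range u)) N
  refine (Algebra.IsAlgebraic.trdeg_le_cardinalMk ℂ (Set.range u)).trans ?_
  refine (Cardinal.mk_range_le).trans ?_
  rw [Cardinal.mk_fin]
  norm_num

/-- **Zero-cycles on pencils of curves of genus two with split Jacobian.** -/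
theorem split_pencil {K : Type} [Field K] [Algebra ℂ K] {l x y : K}
    {f : (IntermediateField.adjoin ℂ {l})[X]} (h : Pencil l x y f) (F₁ F₂ : IntermediateField ℂ K)
    (hr₁ : IsRational F₁) (hr₂ : IsRational F₂) (hl₁ : l ∈ F₁) (hl₂ : l ∈ F₂)
    (hx₁ : F₁ ⊔ IntermediateField.adjoin ℂ {x} = ⊤)
    (hx₂ : F₂ ⊔ IntermediateField.adjoin ℂ {x} = ⊤) {n₁ n₂ : ℕ}
    (hn₁ : Module.finrank F₁ K = n₁) (hn₂ : Module.finrank F₂ K = n₂) (two₁ : 2 ≤ n₁)
    (two₂ : 2 ≤ n₂) (heven : Even (n₁ + n₂))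
    (P₁ Q₁ P₂ Q₂ : (IntermediateField.adjoin ℂ {l})[X]) (hQ₁ : aeval x Q₁ ≠ 0)
    (hQ₂ : aeval x Q₂ ≠ 0)
    (hJ₁ : aeval x (derivative P₁ * Q₁ - P₁ * derivative Q₁) ≠ 0)
    (hJ₂ : aeval x (derivative P₂ * Q₂ - P₂ * derivative Q₂) ≠ 0)
    (hw₁ : aeval x P₁ / aeval x Q₁ ∈ F₁) (hw₂ : aeval x P₂ / aeval x Q₂ ∈ F₂)
    (hv₁ : y * (aeval x (derivative P₁ * Q₁ - P₁ * derivative Q₁) / aeval x Q₁ ^ 2) ∈ F₁)
    (hv₂ : y * (aeval x (derivative P₂ * Q₂ - P₂ * derivative Q₂) / aeval x Q₂ ^ 2) / x ∈ F₂)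
    (htr₁ : Algebra.trace F₁ K x = 0) (htr₂ : Algebra.trace F₂ K x⁻¹ = 0) :
    PointsEquivalent K := by
  obtain ⟨N, _, _, _, u, hu⟩ := exists_big
  obtain ⟨lam, hlam⟩ := exists_lam h hu
  set L := cl0 ({u 0} : Set N) with hL
  have hLc : ∀ a, IsAlgebraic L a → a ∈ L := cl0_closed _
  have hlamL : ∀ e, lam e ∈ L := lam_mem lam L (by rw [hlam]; exact subset_cl0 _ rfl)
  obtain ⟨σ₁, f₁⟩ := exists_fam h hu lam hlam F₁ hl₁ hx₁ hn₁ (by omega) hu.one
  obtain ⟨σ₂, f₂⟩ := exists_fam h hu lam hlam F₂ hl₂ hx₂ hn₂ (by omega) hu.two'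
  obtain ⟨m, hm⟩ := heven
  let σ : Fin n₁ ⊕ Fin n₂ → (K →ₐ[ℂ] N) := Sum.elim σ₁ σ₂
  have hbase : ∀ i (e : IntermediateField.adjoin ℂ {l}), σ i e = lam e := by
    rintro (i | i) e
    · exact f₁.base i e
    · exact f₂.base i e
  -- closed subfields
  let M₁ := clo L {u 1}
  let M₂ := clo L {u 2}
  have hM₁ : ∀ a, IsAlgebraic M₁ a → a ∈ M₁ := clo_closed _ _
  have hM₂ : ∀ a, IsAlgebraic M₂ a → a ∈ M₂ := clo_closed _ _
  have hu1 : u 1 ∈ M₁ := subset_clo _ _ rfl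
  have hu2 : u 2 ∈ M₂ := subset_clo _ _ rfl
  have hu12 : u 1 ∉ M₂ := hu.one'
  have hu21 : u 2 ∉ M₁ := hu.two
  have a1 : ∀ i, σ₁ i x ∈ M₁ := fun i => f₁.up i M₁ hM₁ (le_clo _ _) hu1
  have a2 : ∀ i, σ₂ i x ∈ M₂ := fun i => f₂.up i M₂ hM₂ (le_clo _ _) hu2
  have b1 : ∀ i, σ₁ i x ∉ M₂ := fun i hi => hu12 (f₁.down i M₂ hM₂ (le_clo _ _) hi)
  have b2 : ∀ i, σ₂ i x ∉ M₁ := fun i hi => hu21 (f₂.down i M₁ hM₁ (le_clo _ _) hi)
  have hinj : Function.Injective fun i => σ i x := by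
    rintro (i | i) (j | j) hij
    · exact congrArg Sum.inl (f₁.inj hij)
    · exact absurd (show σ₂ j x ∈ M₁ from (show σ₁ i x = σ₂ j x from hij) ▸ a1 i) (b2 j)
    · exact absurd (show σ₂ i x ∈ M₁ from (show σ₂ i x = σ₁ j x from hij) ▸ a1 j) (b2 i)
    · exact congrArg Sum.inr (f₂.inj hij)
  have hnotL : ∀ i, σ i x ∉ L := by
    rintro (i | i) hi
    · exact b1 i (le_clo _ _ hi)
    · exact b2 i (le_clo _ _ hi)
  have hfull : ∀ {a b : N}, a ∉ L → b ∉ clo L {a} → ∀ M : IntermediateField ℂ N,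
      (∀ v, IsAlgebraic M v → v ∈ M) → L ≤ M → a ∈ M → b ∈ M → ∀ v, v ∈ M :=
    fun haL hab M hM hLM ha hb v => hu.full hM hLM ha hb haL hab v
  have halg₁ : ∀ i (a : N), IsAlgebraic (IntermediateField.adjoin M₂ {σ₁ i x}) a := by
    intro i a
    rw [← mem_clo]
    exact hfull hu.two' (b1 i) (clo M₂ {σ₁ i x}) (clo_closed _ _) ((le_clo _ _).trans (le_clo _ _))
      (le_clo _ _ hu2) (subset_clo _ _ (Set.mem_singleton _)) a
  have halg₂ : ∀ i (a : N), IsAlgebraic (IntermediateField.adjoin M₁ {σ₂ i x}) a := by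
    intro i a
    rw [← mem_clo]
    exact hfull hu.one (b2 i) (clo M₁ {σ₂ i x}) (clo_closed _ _) ((le_clo _ _).trans (le_clo _ _))
      (le_clo _ _ hu1) (subset_clo _ _ (Set.mem_singleton _)) a
  have hmem : ∀ (M : IntermediateField ℂ N) (_ : ∀ a, IsAlgebraic M a → a ∈ M) (_ : L ≤ M)
      (i : Fin n₁ ⊕ Fin n₂), σ i x ∈ M → ∀ k, σ i k ∈ M := by
    intro M hM hLM i hi k
    refine h.range_mem hM ?_ hi k
    have e1 := hbase i ⟨l, IntermediateField.mem_adjoin_simple_self ℂ l⟩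
    change σ i l = _ at e1
    rw [e1]
    exact hLM (hlamL _)
  have hS : Sys L (f.map lam.toRingHom) n₁ n₂ m (fun i => σ i x) (fun i => σ i y) := by
    refine ⟨?_, h.sep.map (f := lam.toRingHom), ?_, ?_, ?_, two₁, two₂, hinj, ?_, hnotL, ?_, ?_,
      ?_, ?_⟩
    · intro n
      rw [coeff_map]
      exact hlamL _
    · rw [natDegree_map]
      exact h.five
    · rw [natDegree_map]
      exact h.six
    · omega
    · intro i
      rw [← map_pow, h.eq, Polynomial.eval_map, Polynomial.aeval_def]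
      refine (Polynomial.hom_eval₂ f _ (σ i).toRingHom x).trans ?_
      congr 1
      exact RingHom.ext fun r => hbase i r
    · intro α β Q hQ0 hV hN i M hM hLM hQ
      exact dom_fam h lam L hlamL (by omega) (by omega) σ hbase hinj hnotL F₁ F₂ hn₁ hn₂
        (fun i j => f₁.agree i j) (fun i j => f₂.agree i j) P₁ Q₁ P₂ Q₂ hQ₁ hQ₂ hJ₁ hJ₂ hw₁ hw₂
        hv₁ hv₂ htr₁ htr₂ α β Q hQ0 hV hN M hM hLM hQ i
    · intro v
      by_contra hcon
      push Not at hcon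
      have hv : ∀ i, σ i x ∈ clo L {v} := fun i => cl_iff.1 (hcon i)
      have c1 : u 1 ∈ clo L {v} :=
        f₁.down ⟨0, by omega⟩ _ (clo_closed _ _) (le_clo _ _) (hv (Sum.inl ⟨0, by omega⟩))
      have c2 : u 2 ∈ clo L {v} :=
        f₂.down ⟨0, by omega⟩ _ (clo_closed _ _) (le_clo _ _) (hv (Sum.inr ⟨0, by omega⟩))
      have c3 : v ∈ M₁ := exchange hLc c1 hu.one
      exact hu21 (clo_le hM₁ (le_clo _ _) (by rintro _ rfl; exact c3) c2)
    · rintro (i | i) (j | j) hij M hM hLM hi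
      · exact f₁.up j M hM hLM (f₁.down i M hM hLM (hi rfl))
      · simp at hij
      · simp at hij
      · exact f₂.up j M hM hLM (f₂.down i M hM hLM (hi rfl))
    · rintro (i | i) (j | j) hij hne
      · obtain ⟨g, hg, hgx, π, hπ⟩ := f₁.aut h hlamL hM₂ (le_clo _ _) b1 halg₁ i j
        refine ⟨g, fun a ha => hg a (le_clo _ _ ha), hgx, Equiv.sumCongr π (Equiv.refl _), ?_⟩
        rintro (k | k)
        · exact hπ k
        · have e1 := hmem M₂ hM₂ (le_clo _ _) (Sum.inr k) (a2 k)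
          exact ⟨hg _ (e1 x), hg _ (e1 y)⟩
      · simp at hij
      · simp at hij
      · obtain ⟨g, hg, hgx, π, hπ⟩ := f₂.aut h hlamL hM₁ (le_clo _ _) b2 halg₂ i j
        refine ⟨g, fun a ha => hg a (le_clo _ _ ha), hgx, Equiv.sumCongr (Equiv.refl _) π, ?_⟩
        rintro (k | k)
        · have e1 := hmem M₁ hM₁ (le_clo _ _) (Sum.inl k) (a1 k)
          exact ⟨hg _ (e1 x), hg _ (e1 y)⟩
        · exact hπ k
  exact asm h hu.trdeg lam L hlamL (fun w hw => by rw [hlam]; exact hu.indep hw) σ hbase hS F₁ F₂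
    hr₁ hr₂ hx₁ hx₂ hn₁ hn₂ (fun i j => f₁.agree i j) (fun i j => f₂.agree i j)

end Vale.Agent.P297.Gen
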