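import Vale.Agent.P297.Gen.Fib
import Mathlib.RingTheory.Trace.Basic

/-!
Traces to the two subfields.
-/

set_option linter.unusedSectionVars false
set_option linter.style.haveILetI false

open CategoryTheory AlgebraicGeometry IntermediateField Polynomial

namespace Vale.Agent.P297.Gen

open Vale.Agent.P297 Vale.Agent.P297.H839 Vale.Agent.P297.H516 Vale.Agent.P297.H878

variable {K : Type} [Field K] [Algebra ℂ K] {N : Type} [Field N] [Algebra ℂ N] [IsAlgClosed N]

/-- The sum over all embeddings with a given restriction to `F` is the trace. -/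
theorem sum_eq_zero_of_trace {F : IntermediateField ℂ K} {n : ℕ} (hn : Module.finrank F K = n)
    (σ : Fin n → (K →ₐ[ℂ] N)) (hinj : Function.Injective σ)
    (hagree : ∀ i j, ∀ k ∈ F, σ i k = σ j k) {u : K} (htr : Algebra.trace F K u = 0) :
    ∑ i, σ i u = 0 := by
  rcases Nat.eq_zero_or_pos n with h0 | hpos
  · subst h0
    exact Fin.sum_univ_zero _
  haveI : FiniteDimensional F K := FiniteDimensional.of_finrank_pos (by omega)
  haveI : CharZero F := charZero_of_injective_algebraMap (algebraMap ℂ F).injective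
  let i₀ : Fin n := ⟨0, hpos⟩
  letI : Algebra F N := ((σ i₀).comp F.val).toRingHom.toAlgebra
  have halg : ∀ k : F, algebraMap F N k = σ i₀ k := fun _ => rfl
  let e : Fin n → (K →ₐ[F] N) := fun i =>
    { (σ i).toRingHom with
      commutes' := fun k => hagree i i₀ k k.2 }
  have he : ∀ i (k : K), e i k = σ i k := fun _ _ => rfl
  have heinj : Function.Injective e := by
    intro i j hij
    apply hinj
    apply AlgHom.ext
    intro k
    rw [← he, ← he, hij]
  have hbij : Function.Bijective e := by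
    rw [Fintype.bijective_iff_injective_and_card]
    refine ⟨heinj, ?_⟩
    rw [AlgHom.card F K N, Fintype.card_fin, hn]
  have h1 := trace_eq_sum_embeddings (K := F) (L := K) N (x := u)
  rw [htr, map_zero] at h1
  have h2 := (Equiv.ofBijective e hbij).sum_comp (fun ψ : K →ₐ[F] N => ψ u)
  rw [← h1] at h2
  exact h2

/-- The domination property. -/
theorem dom_fam {l x y : K} {f : (IntermediateField.adjoin ℂ {l})[X]} (h : Pencil l x y f)
    (lam : IntermediateField.adjoin ℂ {l} →ₐ[ℂ] N) (L : IntermediateField ℂ N)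
    (hlamL : ∀ e, lam e ∈ L) {n₁ n₂ : ℕ} (hn₁ : 0 < n₁)
    (hn₂ : 0 < n₂) (σ : Fin n₁ ⊕ Fin n₂ → (K →ₐ[ℂ] N))
    (hσ : ∀ i (e : IntermediateField.adjoin ℂ {l}), σ i e = lam e)
    (hinj : Function.Injective fun i => σ i x) (hnotMem : ∀ i, σ i x ∉ L)
    (F₁ F₂ : IntermediateField ℂ K) (hF₁ : Module.finrank F₁ K = n₁)
    (hF₂ : Module.finrank F₂ K = n₂)
    (hagree₁ : ∀ i j, ∀ k ∈ F₁, σ (Sum.inl i) k = σ (Sum.inl j) k)
    (hagree₂ : ∀ i j, ∀ k ∈ F₂, σ (Sum.inr i) k = σ (Sum.inr j) k)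
    (P₁ Q₁ P₂ Q₂ : (IntermediateField.adjoin ℂ {l})[X]) (hQ₁ : aeval x Q₁ ≠ 0)
    (hQ₂ : aeval x Q₂ ≠ 0)
    (hJ₁ : aeval x (derivative P₁ * Q₁ - P₁ * derivative Q₁) ≠ 0)
    (hJ₂ : aeval x (derivative P₂ * Q₂ - P₂ * derivative Q₂) ≠ 0)
    (hw₁ : aeval x P₁ / aeval x Q₁ ∈ F₁) (hw₂ : aeval x P₂ / aeval x Q₂ ∈ F₂)
    (hv₁ : y * (aeval x (derivative P₁ * Q₁ - P₁ * derivative Q₁) / aeval x Q₁ ^ 2) ∈ F₁)
    (hv₂ : y * (aeval x (derivative P₂ * Q₂ - P₂ * derivative Q₂) / aeval x Q₂ ^ 2) / x ∈ F₂)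
    (htr₁ : Algebra.trace F₁ K x = 0) (htr₂ : Algebra.trace F₂ K x⁻¹ = 0)
    (α β Q : N[X]) (hQ0 : Q ≠ 0)
    (hG : ∀ i, α.eval (σ i x) + β.eval (σ i x) * σ i y = 0)
    (hN : α ^ 2 - β ^ 2 * f.map lam.toRingHom = (∏ i, (X - C (σ i x))) * Q)
    (M : IntermediateField ℂ N) (hM : ∀ u, IsAlgebraic M u → u ∈ M) (hLM : L ≤ M)
    (hQ : ∀ r, Q.IsRoot r → r ∈ M) (i : Fin n₁ ⊕ Fin n₂) : σ i x ∈ M := by
  have hcoef : ∀ (p : (IntermediateField.adjoin ℂ {l})[X]) (n : ℕ),
      (p.map lam.toRingHom).coeff n ∈ L := by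
    intro p n
    rw [coeff_map]
    exact hlamL _
  have hev : ∀ (i : Fin n₁ ⊕ Fin n₂) (p : (IntermediateField.adjoin ℂ {l})[X]),
      σ i (aeval x p) = (p.map lam.toRingHom).eval (σ i x) := by
    intro i p
    rw [Polynomial.eval_map, Polynomial.aeval_def]
    refine (Polynomial.hom_eval₂ p _ (σ i).toRingHom x).trans ?_
    congr 1
    exact RingHom.ext fun e => hσ i e
  have hy0 : ∀ i, σ i y ≠ 0 := by
    intro i h0
    have h1 : y = 0 := (σ i).toRingHom.injective (h0.trans (map_zero _).symm)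
    apply h.notMem
    rw [h1]
    exact zero_mem _
  have hx0 : ∀ i, σ i x ≠ 0 := fun i h0 => hnotMem i (by rw [h0]; exact zero_mem _)
  have hx : x ≠ 0 := by
    rintro rfl
    exact hx0 (Sum.inl ⟨0, hn₁⟩) (map_zero _)
  haveI : Nonempty (Fin n₁) := ⟨⟨0, hn₁⟩⟩
  haveI : Nonempty (Fin n₂) := ⟨⟨0, hn₂⟩⟩
  have hder : ∀ (i : Fin n₁ ⊕ Fin n₂) (P R : (IntermediateField.adjoin ℂ {l})[X])
      (hR : aeval x R ≠ 0) (D : Derivation ℤ N N) (hD : ∀ u ∈ L, D u = 0),
      D (σ i x) * σ i (aeval x (derivative P * R - P * derivative R) / aeval x R ^ 2) =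
        D (σ i (aeval x P / aeval x R)) := by
    intro i P R hR D hD
    have hRi : (R.map lam.toRingHom).eval (σ i x) ≠ 0 := by
      rw [← hev]
      exact fun h0 => hR ((σ i).toRingHom.injective (h0.trans (map_zero _).symm))
    have h1 := der_fibre L (P := P.map lam.toRingHom) (Q := R.map lam.toRingHom) (hcoef P)
      (hcoef R) (w := σ i (aeval x P / aeval x R)) (z := σ i x) (by
        rw [map_div₀, hev, hev, div_mul_cancel₀ _ hRi]) hRi D hD
    rw [← h1, map_div₀, map_pow, hev, hev, derivative_map, derivative_map]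
    simp only [Polynomial.map_sub, Polynomial.map_mul]
  have hres := dom (z₁ := fun i => σ (Sum.inl i) x) (y₁ := fun i => σ (Sum.inl i) y)
    (z₂ := fun i => σ (Sum.inr i) x) (y₂ := fun i => σ (Sum.inr i) y) L M hLM hM
    (f := f.map lam.toRingHom) (α := α) (β := β) (Q := Q) (hcoef f)
    (h.sep.map (f := lam.toRingHom)).squarefree (by rw [natDegree_map]; exact h.five) (by
      have h2 : (Sum.elim (fun i => σ (Sum.inl i) x) fun i => σ (Sum.inr i) x) =
          fun i => σ i x := by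
        funext i
        rcases i with i | i <;> rfl
      rw [h2]
      exact hinj)
    (fun i => by
      change σ (Sum.inl i) y ^ 2 = _
      rw [← map_pow, h.eq, hev])
    (fun i => by
      change σ (Sum.inr i) y ^ 2 = _
      rw [← map_pow, h.eq, hev])
    (fun D hD i j => by
      change D (σ (Sum.inl i) x) / σ (Sum.inl i) y = D (σ (Sum.inl j) x) / σ (Sum.inl j) y
      have e1 := hder (Sum.inl i) P₁ Q₁ hQ₁ D hD
      have e2 := hder (Sum.inl j) P₁ Q₁ hQ₁ D hD
      rw [hagree₁ i j _ hw₁] at e1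
      have e3 := hagree₁ i j _ hv₁
      set J := aeval x (derivative P₁ * Q₁ - P₁ * derivative Q₁) / aeval x Q₁ ^ 2 with hJ
      have hJ0 : J ≠ 0 := div_ne_zero hJ₁ (pow_ne_zero 2 hQ₁)
      have hJi : ∀ k, σ k J ≠ 0 := fun k h0 =>
        hJ0 ((σ k).toRingHom.injective (h0.trans (map_zero _).symm))
      rw [map_mul, map_mul] at e3
      rw [div_eq_div_iff (hy0 _) (hy0 _)]
      apply mul_right_cancel₀ (mul_ne_zero (hJi (Sum.inl i)) (hJi (Sum.inl j)))
      linear_combination (σ (Sum.inl j) y * σ (Sum.inl j) J) * e1 -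
        (σ (Sum.inl i) y * σ (Sum.inl i) J) * e2 -
        D (σ (Sum.inl j) (aeval x P₁ / aeval x Q₁)) * e3)
    (sum_eq_zero_of_trace hF₁ (fun i => σ (Sum.inl i)) (fun i j hij => by
      have h3 := hinj (a₁ := Sum.inl i) (a₂ := Sum.inl j) (congrArg (fun φ : K →ₐ[ℂ] N => φ x) hij)
      exact Sum.inl_injective h3) hagree₁ htr₁)
    (fun D hD i j => by
      change σ (Sum.inr i) x * D (σ (Sum.inr i) x) / σ (Sum.inr i) y =
        σ (Sum.inr j) x * D (σ (Sum.inr j) x) / σ (Sum.inr j) y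
      have e1 := hder (Sum.inr i) P₂ Q₂ hQ₂ D hD
      have e2 := hder (Sum.inr j) P₂ Q₂ hQ₂ D hD
      rw [hagree₂ i j _ hw₂] at e1
      have e3 := hagree₂ i j _ hv₂
      set J := aeval x (derivative P₂ * Q₂ - P₂ * derivative Q₂) / aeval x Q₂ ^ 2 with hJ
      have hJ0 : J ≠ 0 := div_ne_zero hJ₂ (pow_ne_zero 2 hQ₂)
      have hJi : ∀ k, σ k J ≠ 0 := fun k h0 =>
        hJ0 ((σ k).toRingHom.injective (h0.trans (map_zero _).symm))
      rw [map_div₀, map_div₀, map_mul, map_mul, div_eq_div_iff (hx0 _) (hx0 _)] at e3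
      rw [div_eq_div_iff (hy0 _) (hy0 _)]
      apply mul_right_cancel₀ (mul_ne_zero (hJi (Sum.inr i)) (hJi (Sum.inr j)))
      linear_combination (σ (Sum.inr i) x * σ (Sum.inr j) y * σ (Sum.inr j) J) * e1 -
        (σ (Sum.inr j) x * σ (Sum.inr i) y * σ (Sum.inr i) J) * e2 -
        D (σ (Sum.inr j) (aeval x P₂ / aeval x Q₂)) * e3)
    (by
      have h3 := sum_eq_zero_of_trace hF₂ (fun i => σ (Sum.inr i)) (fun i j hij => by
        have h3 := hinj (a₁ := Sum.inr i) (a₂ := Sum.inr j)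
          (congrArg (fun φ : K →ₐ[ℂ] N => φ x) hij)
        exact Sum.inr_injective h3) hagree₂ htr₂
      rw [← h3]
      exact Finset.sum_congr rfl fun i _ => (map_inv₀ _ _).symm)
    (fun i => hy0 _) (fun i => hy0 _) (fun i => hx0 _) (fun i => hG _) (fun i => hG _) hQ0
    (by
      rw [hN]
      congr 1
      refine Finset.prod_congr rfl fun i _ => ?_
      rcases i with i | i <;> rfl) hQ
  rcases i with i | i
  · exact hres.1 i
  · exact hres.2 i

end Vale.Agent.P297.Gen
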