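import Vale.Agent.P297.Gen.Clo
import Vale.Agent.P297.Gen.Tr

/-!
The generic fibres of the two quotients.
-/

set_option linter.unusedSectionVars false
set_option linter.style.haveILetI false

open CategoryTheory AlgebraicGeometry IntermediateField Polynomial

namespace Vale.Agent.P297.Gen

open Vale.Agent.P297 Vale.Agent.P297.H839 Vale.Agent.P297.H516 Vale.Agent.P297.H878

/-- An algebraically closed field of transcendence degree three. -/
structure Big (N : Type) [Field N] [Algebra ℂ N] (u : Fin 3 → N) : Prop where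
  ind : AlgebraicIndependent ℂ u
  all : ∀ M : IntermediateField ℂ N, (∀ v, IsAlgebraic M v → v ∈ M) → (∀ i, u i ∈ M) → ∀ v, v ∈ M

theorem exists_big : ∃ (N : Type) (_ : Field N) (_ : Algebra ℂ N) (_ : IsAlgClosed N)
    (u : Fin 3 → N), Big N u := by
  let R := MvPolynomial (Fin 3) ℂ
  let E := FractionRing R
  let N := AlgebraicClosure E
  let g : R →ₐ[ℂ] N := IsScalarTower.toAlgHom ℂ R N
  have hg : Function.Injective g := by
    have h1 : Function.Injective (algebraMap R N) := by
      rw [IsScalarTower.algebraMap_eq R E N]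
      exact (algebraMap E N).injective.comp (IsFractionRing.injective R E)
    exact h1
  let u : Fin 3 → N := fun i => g (MvPolynomial.X i)
  refine ⟨N, inferInstance, inferInstance, inferInstance, u, ?_, ?_⟩
  · exact (MvPolynomial.algebraicIndependent_X (Fin 3) ℂ).map' (f := g) hg
  · intro M hM hu v
    have h1 : ∀ r : R, g r ∈ M := by
      intro r
      have h2 : g = MvPolynomial.aeval u := MvPolynomial.algHom_ext fun i => by
        rw [MvPolynomial.aeval_X]
      rw [h2]
      induction r using MvPolynomial.induction_on with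
      | C a => rw [MvPolynomial.aeval_C]; exact M.algebraMap_mem a
      | add p q hp hq => rw [map_add]; exact add_mem hp hq
      | mul_X p i hp => rw [map_mul, MvPolynomial.aeval_X]; exact mul_mem hp (hu i)
    have h2 : ∀ e : E, algebraMap E N e ∈ M := by
      intro e
      obtain ⟨a, b, hb, rfl⟩ := IsFractionRing.div_surjective (A := R) e
      rw [map_div₀, ← IsScalarTower.algebraMap_apply, ← IsScalarTower.algebraMap_apply]
      exact div_mem (h1 a) (h1 b)
    obtain ⟨p, hp0, hp⟩ := Algebra.IsAlgebraic.isAlgebraic (R := E) v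
    apply hM
    refine isAlgebraic_of_coeff (p := p.map (algebraMap E N)) ?_ ?_ ?_
    · intro n
      rw [coeff_map]
      exact h2 _
    · exact (Polynomial.map_ne_zero_iff (algebraMap E N).injective).2 hp0
    · rw [Polynomial.eval_map]
      exact hp

section

variable {N : Type} [Field N] [Algebra ℂ N] [IsAlgClosed N] {u : Fin 3 → N}

/-- The relative algebraic closure of `ℂ(S)`. -/
noncomputable def cl0 (S : Set N) : IntermediateField ℂ N :=
  (algebraicClosure (IntermediateField.adjoin ℂ S) N).restrictScalars ℂ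

theorem mem_cl0 {S : Set N} {x : N} :
    x ∈ cl0 S ↔ IsAlgebraic (IntermediateField.adjoin ℂ S) x := mem_algebraicClosure_iff

theorem cl0_closed (S : Set N) : ∀ u : N, IsAlgebraic (cl0 S) u → u ∈ cl0 S := by
  intro x hx
  have h1 : IsAlgebraic (algebraicClosure (IntermediateField.adjoin ℂ S) N) x := hx
  have h2 : x ∈ algebraicClosure (algebraicClosure (IntermediateField.adjoin ℂ S) N) N :=
    mem_algebraicClosure_iff.2 h1
  rw [algebraicClosure.algebraicClosure_eq_bot, IntermediateField.mem_bot] at h2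
  obtain ⟨y, rfl⟩ := h2
  exact y.2

theorem subset_cl0 (S : Set N) : S ⊆ cl0 S := by
  intro x hx
  rw [SetLike.mem_coe, mem_cl0]
  exact isAlgebraic_algebraMap
    (⟨x, IntermediateField.subset_adjoin ℂ S hx⟩ : IntermediateField.adjoin ℂ S)

theorem cl0_le {M' : IntermediateField ℂ N} {S : Set N} (hM' : ∀ u, IsAlgebraic M' u → u ∈ M')
    (hS : S ⊆ M') : cl0 S ≤ M' := by
  intro x hx
  rw [mem_cl0] at hx
  obtain ⟨p, hp0, hp⟩ := hx
  have hle : IntermediateField.adjoin ℂ S ≤ M' := IntermediateField.adjoin_le_iff.2 hS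
  apply hM'
  refine isAlgebraic_of_coeff (p := p.map (algebraMap _ N)) ?_ ?_ ?_
  · intro n
    rw [coeff_map]
    exact hle (p.coeff n).2
  · exact (Polynomial.map_ne_zero_iff (algebraMap (IntermediateField.adjoin ℂ S) N).injective).2 hp0
  · rw [Polynomial.eval_map]
    exact hp

theorem Big.notMem (h : Big N u) {s : Set (Fin 3)} {i : Fin 3} (hi : i ∉ s) :
    u i ∉ cl0 (u '' s) := by
  rw [mem_cl0]
  exact (IntermediateField.transcendental_adjoin_iff).2 (h.ind.transcendental_adjoin hi)

theorem Big.zero (h : Big N u) : Transcendental ℂ (u 0) := h.ind.transcendental 0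

theorem Big.one (h : Big N u) : u 1 ∉ cl0 {u 0} := by
  have h1 := h.notMem (s := {0}) (i := 1) (by simp)
  rwa [Set.image_singleton] at h1

theorem Big.two' (h : Big N u) : u 2 ∉ cl0 {u 0} := by
  have h1 := h.notMem (s := {0}) (i := 2) (by simp)
  rwa [Set.image_singleton] at h1

theorem Big.two (h : Big N u) : u 2 ∉ clo (cl0 {u 0}) {u 1} := by
  intro h0
  refine h.notMem (s := {0, 1}) (i := 2) (by simp) (clo_le (cl0_closed _) ?_ ?_ h0)
  · refine cl0_le (cl0_closed _) ?_
    rintro _ rfl
    exact subset_cl0 _ ⟨0, by simp, rfl⟩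
  · rintro _ rfl
    exact subset_cl0 _ ⟨1, by simp, rfl⟩

theorem Big.one' (h : Big N u) : u 1 ∉ clo (cl0 {u 0}) {u 2} := by
  intro h0
  refine h.notMem (s := {0, 2}) (i := 1) (by simp) (clo_le (cl0_closed _) ?_ ?_ h0)
  · refine cl0_le (cl0_closed _) ?_
    rintro _ rfl
    exact subset_cl0 _ ⟨0, by simp, rfl⟩
  · rintro _ rfl
    exact subset_cl0 _ ⟨2, by simp, rfl⟩

/-- A closed subfield that contains two independent elements is everything. -/
theorem Big.full (h : Big N u) {M : IntermediateField ℂ N} (hM : ∀ v, IsAlgebraic M v → v ∈ M)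
    (hL : cl0 {u 0} ≤ M) {a b : N} (ha : a ∈ M) (hb : b ∈ M) (haL : a ∉ cl0 {u 0})
    (hab : b ∉ clo (cl0 {u 0}) {a}) (v : N) : v ∈ M := by
  set L := cl0 ({u 0} : Set N) with hLdef
  have hLc : ∀ v, IsAlgebraic L v → v ∈ L := cl0_closed _
  have h0 : u 0 ∈ L := subset_cl0 _ rfl
  have hN : ∀ v, v ∈ clo (clo L {u 1}) {u 2} := by
    refine h.all _ (clo_closed _ _) ?_
    intro i
    fin_cases i
    · exact le_clo _ _ (le_clo _ _ h0)
    · exact le_clo _ _ (subset_clo _ _ rfl)
    · exact subset_clo _ _ rfl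
  have hMa : clo L {a} ≤ M := clo_le hM hL (by rintro _ rfl; exact ha)
  have hMab : clo (clo L {a}) {b} ≤ M := clo_le hM hMa (by rintro _ rfl; exact hb)
  by_cases h1 : a ∈ clo L {u 1}
  · have h2 : u 1 ∈ clo L {a} := exchange hLc h1 haL
    have h3 : clo L {u 1} ≤ clo L {a} := clo_le (clo_closed _ _) (le_clo _ _) (by
      rintro _ rfl
      exact h2)
    have h4 : b ∈ clo (clo L {a}) {u 2} :=
      clo_le (clo_closed _ _) (h3.trans (le_clo _ _)) (subset_clo _ _) (hN b)
    have h5 : u 2 ∈ clo (clo L {a}) {b} := exchange (clo_closed _ _) h4 hab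
    refine h.all M hM ?_ v
    intro i
    fin_cases i
    · exact hL h0
    · exact hMa h2
    · exact hMab h5
  · have h2 : u 2 ∈ clo (clo L {u 1}) {a} := exchange (clo_closed _ _) (hN a) h1
    have h3 : clo (clo L {u 1}) {a} ≤ clo (clo L {a}) {u 1} := by
      refine clo_le (clo_closed _ _) ?_ ?_
      · refine clo_le (clo_closed _ _) ((le_clo _ _).trans (le_clo _ _)) (subset_clo _ _)
      · rintro _ rfl
        exact le_clo _ _ (subset_clo _ _ rfl)
    have h4 : b ∈ clo (clo L {a}) {u 1} := by
      refine clo_le (clo_closed _ _) ?_ ?_ (hN b)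
      · refine clo_le (clo_closed _ _) ((le_clo _ _).trans (le_clo _ _)) (subset_clo _ _)
      · rintro _ rfl
        exact h3 h2
    have h5 : u 1 ∈ clo (clo L {a}) {b} := exchange (clo_closed _ _) h4 hab
    have h6 : u 1 ∈ M := hMab h5
    have h7 : clo (clo L {u 1}) {a} ≤ M := by
      refine clo_le hM (clo_le hM hL ?_) ?_
      · rintro _ rfl
        exact h6
      · rintro _ rfl
        exact ha
    refine h.all M hM ?_ v
    intro i
    fin_cases i
    · exact hL h0
    · exact h6
    · exact h7 h2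

end

end Vale.Agent.P297.Gen
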