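import Vale.Agent.P297.Gen.Setup

/-!
The system of points.
-/

set_option linter.unusedSectionVars false
set_option linter.style.haveILetI false

open CategoryTheory AlgebraicGeometry IntermediateField Polynomial

namespace Vale.Agent.P297.Gen

open Vale.Agent.P297 Vale.Agent.P297.H839 Vale.Agent.P297.H516 Vale.Agent.P297.H878

variable {K : Type} [Field K] [Algebra ℂ K] {N : Type} [Field N] [Algebra ℂ N] [IsAlgClosed N]
  {u : Fin 3 → N} {l x y : K} {f : (IntermediateField.adjoin ℂ {l})[X]}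

theorem Big.indep (hu : Big N u) {v : N} (hv : v ∉ cl0 {u 0}) :
    AlgebraicIndependent ℂ ![u 0, v] :=
  (pair_iff (u 0) v).2 ⟨hu.zero, fun h => hv (mem_cl0.2 h)⟩

theorem exists_lam (h : Pencil l x y f) (hu : Big N u) :
    ∃ lam : IntermediateField.adjoin ℂ {l} →ₐ[ℂ] N,
      lam ⟨l, IntermediateField.mem_adjoin_simple_self ℂ l⟩ = u 0 := by
  obtain ⟨τ, hτ⟩ := exists_tau ![l, x] h.ind ![u 0, u 1] (fun w hw =>
    isUnit_iff_ne_zero.2 fun h0 => hw ((hu.indep hu.one).eq_zero_of_aeval_eq_zero w h0))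
  exact ⟨τ.comp (IntermediateField.inclusion (le_range l x)), hτ 0⟩

theorem lam_mem (lam : IntermediateField.adjoin ℂ {l} →ₐ[ℂ] N) (L : IntermediateField ℂ N)
    (hl : lam ⟨l, IntermediateField.mem_adjoin_simple_self ℂ l⟩ ∈ L)
    (e : IntermediateField.adjoin ℂ {l}) : lam e ∈ L := by
  obtain ⟨e, he⟩ := e
  induction he using IntermediateField.adjoin_induction with
  | mem x hx =>
    rcases hx with rfl
    exact hl
  | algebraMap r =>
    have h1 : (⟨algebraMap ℂ K r, IntermediateField.algebraMap_mem _ r⟩ :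
      IntermediateField.adjoin ℂ {l}) = algebraMap ℂ _ r := rfl
    rw [h1, AlgHom.commutes]
    exact L.algebraMap_mem r
  | add x y hx hy h1 h2 =>
    have h3 : (⟨x + y, add_mem hx hy⟩ : IntermediateField.adjoin ℂ {l}) = ⟨x, hx⟩ + ⟨y, hy⟩ := rfl
    rw [h3, map_add]
    exact add_mem h1 h2
  | mul x y hx hy h1 h2 =>
    have h3 : (⟨x * y, mul_mem hx hy⟩ : IntermediateField.adjoin ℂ {l}) = ⟨x, hx⟩ * ⟨y, hy⟩ := rfl
    rw [h3, map_mul]
    exact mul_mem h1 h2
  | inv x hx h1 =>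
    have h3 : (⟨x⁻¹, inv_mem hx⟩ : IntermediateField.adjoin ℂ {l}) = ⟨x, hx⟩⁻¹ := rfl
    rw [h3, map_inv₀]
    exact inv_mem h1

/-- The fibre over a generic point of a quotient. -/
structure Fam (f : (IntermediateField.adjoin ℂ {l})[X])
    (lam : IntermediateField.adjoin ℂ {l} →ₐ[ℂ] N) (L : IntermediateField ℂ N)
    (F : IntermediateField ℂ K) {n : ℕ} (x : K) (v : N) (σ : Fin n → (K →ₐ[ℂ] N)) : Prop where
  base : ∀ i (e : IntermediateField.adjoin ℂ {l}), σ i e = lam e
  inj : Function.Injective fun i => σ i x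
  agree : ∀ i j, ∀ k ∈ F, σ i k = σ j k
  full : ∀ φ : K →ₐ[ℂ] N, (∀ i, ∀ k ∈ F, φ k = σ i k) → ∃ i, φ = σ i
  down : ∀ i (M : IntermediateField ℂ N), (∀ a, IsAlgebraic M a → a ∈ M) → L ≤ M →
    σ i x ∈ M → v ∈ M
  up : ∀ i (M : IntermediateField ℂ N), (∀ a, IsAlgebraic M a → a ∈ M) → L ≤ M →
    v ∈ M → σ i x ∈ M

theorem exists_fam (h : Pencil l x y f) (hu : Big N u)
    (lam : IntermediateField.adjoin ℂ {l} →ₐ[ℂ] N)
    (hlam : lam ⟨l, IntermediateField.mem_adjoin_simple_self ℂ l⟩ = u 0)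
    (F : IntermediateField ℂ K) (hlF : l ∈ F)
    (hxF : F ⊔ IntermediateField.adjoin ℂ {x} = ⊤) {n : ℕ} (hn : Module.finrank F K = n)
    (hpos : 0 < n) {v : N} (hv : v ∉ cl0 {u 0}) :
    ∃ σ : Fin n → (K →ₐ[ℂ] N), Fam f lam (cl0 {u 0}) F x v σ := by
  haveI : FiniteDimensional F K := FiniteDimensional.of_finrank_pos (by omega)
  obtain ⟨y', hy'⟩ := IsAlgClosed.exists_pow_nat_eq ((f.map lam.toRingHom).eval v) two_pos
  obtain ⟨Θ, hΘ, hΘx, hΘy⟩ := h.emb lam (z' := v) (y' := y') (by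
    rw [hlam]
    exact hu.indep hv) hy'
  obtain ⟨σ, hσi, hσ, hfull⟩ := exists_extensions F hn hpos Θ
  have hleF : IntermediateField.adjoin ℂ {l} ≤ F := by
    rw [IntermediateField.adjoin_le_iff]
    rintro _ rfl
    exact hlF
  have hbase : ∀ i (e : IntermediateField.adjoin ℂ {l}), σ i e = lam e := fun i e => by
    rw [hσ i e (hleF e.2), hΘ]
  have hlL : lam ⟨l, IntermediateField.mem_adjoin_simple_self ℂ l⟩ ∈ cl0 ({u 0} : Set N) := by
    rw [hlam]
    exact subset_cl0 _ rfl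
  have hσl : ∀ i, σ i l ∈ cl0 ({u 0} : Set N) := fun i => by
    rw [← hlam] at hlL ⊢
    have := hbase i ⟨l, IntermediateField.mem_adjoin_simple_self ℂ l⟩
    change σ i l = _ at this
    rw [this]
    exact hlL
  have hΘl : Θ l ∈ cl0 ({u 0} : Set N) := by
    have := hΘ ⟨l, IntermediateField.mem_adjoin_simple_self ℂ l⟩
    change Θ l = _ at this
    rw [this, hlam]
    exact subset_cl0 _ rfl
  have hgen : IntermediateField.adjoin ℂ ((F : Set K) ∪ {x}) = ⊤ := by
    rw [IntermediateField.adjoin_union, IntermediateField.adjoin_self]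
    exact hxF
  refine ⟨σ, hbase, ?_, fun i j k hk => by rw [hσ i k hk, hσ j k hk], ?_, ?_, ?_⟩
  · intro i j hij
    apply hσi
    apply AlgHom.ext
    intro k
    have hk : k ∈ IntermediateField.adjoin ℂ ((F : Set K) ∪ {x}) := by
      rw [hgen]
      trivial
    induction hk using IntermediateField.adjoin_induction with
    | mem a ha =>
      rcases ha with ha | ha
      · rw [hσ i a ha, hσ j a ha]
      · rcases ha with rfl
        exact hij
    | algebraMap r => rw [AlgHom.commutes, AlgHom.commutes]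
    | add x y _ _ h1 h2 => rw [map_add, map_add, h1, h2]
    | mul x y _ _ h1 h2 => rw [map_mul, map_mul, h1, h2]
    | inv x _ h1 => rw [map_inv₀, map_inv₀, h1]
  · intro φ hφ
    apply hfull
    intro k hk
    rw [hφ ⟨0, hpos⟩ k hk, hσ _ k hk]
  · intro i M hM hL hi
    rw [← hΘx]
    exact mem_of_agree hM (fun k hk => (hσ i k hk).symm)
      (fun k _ => h.range_mem hM (hL (hσl i)) hi k) x
  · intro i M hM hL hi
    rw [← hΘx] at hi
    exact mem_of_agree hM (fun k hk => hσ i k hk)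
      (fun k _ => h.range_mem hM (hL hΘl) hi k) x

theorem Fam.aut (h : Pencil l x y f) {lam : IntermediateField.adjoin ℂ {l} →ₐ[ℂ] N}
    {L : IntermediateField ℂ N} (hlamL : ∀ e, lam e ∈ L) {F : IntermediateField ℂ K} {n : ℕ}
    {v : N} {σ : Fin n → (K →ₐ[ℂ] N)} (hF : Fam f lam L F x v σ) {M : IntermediateField ℂ N}
    (hM : ∀ a, IsAlgebraic M a → a ∈ M) (hLM : L ≤ M) (hnot : ∀ i, σ i x ∉ M)
    (halg : ∀ i (a : N), IsAlgebraic (IntermediateField.adjoin M {σ i x}) a) (i j : Fin n) :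
    ∃ g : N ≃ₐ[ℂ] N, (∀ a ∈ M, g a = a) ∧ g (σ i x) = σ j x ∧ ∃ π : Equiv.Perm (Fin n),
      ∀ k, g (σ k x) = σ (π k) x ∧ g (σ k y) = σ (π k) y := by
  let e : IntermediateField.adjoin ℂ {l} →+* M :=
    { toFun := fun r => ⟨lam r, hLM (hlamL r)⟩
      map_one' := Subtype.ext (map_one lam)
      map_zero' := Subtype.ext (map_zero lam)
      map_mul' := fun a b => Subtype.ext (map_mul lam _ _)
      map_add' := fun a b => Subtype.ext (map_add lam _ _) }
  have hpt : ∀ k, σ k y ^ 2 = Polynomial.aeval (σ k x) (f.map e) := by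
    intro k
    rw [← map_pow, h.eq, Polynomial.aeval_def, Polynomial.aeval_def, Polynomial.eval₂_map]
    refine (Polynomial.hom_eval₂ f _ (σ k).toRingHom x).trans ?_
    congr 1
    exact RingHom.ext fun r => hF.base k r
  obtain ⟨g, hg, hgx, hgy⟩ := ext_emb M hM (f.map e) (h.sep.map (f := e)) (by
    rw [Polynomial.natDegree_map]
    have := h.five
    omega) (hnot i) (hnot j) (hpt i) (hpt j) (halg i) (halg j)
  have hgi : (g.toAlgHom).comp (σ i) = σ j := by
    apply h.ext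
    · change g (σ i l) = σ j l
      have e1 := hF.base i ⟨l, IntermediateField.mem_adjoin_simple_self ℂ l⟩
      have e2 := hF.base j ⟨l, IntermediateField.mem_adjoin_simple_self ℂ l⟩
      change σ i l = _ at e1
      change σ j l = _ at e2
      rw [e1, e2]
      exact hg _ (hLM (hlamL _))
    · exact hgx
    · exact hgy
  have hex : ∀ k, ∃ k', (g.toAlgHom).comp (σ k) = σ k' := by
    intro k
    apply hF.full
    intro k' a ha
    change g (σ k a) = σ k' a
    rw [hF.agree k i a ha]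
    have e1 : g (σ i a) = σ j a := congrArg (fun φ : K →ₐ[ℂ] N => φ a) hgi
    rw [e1]
    exact hF.agree j k' a ha
  choose π₀ hπ₀ using hex
  have hπi : Function.Injective π₀ := by
    intro a b hab
    apply hF.inj
    have e1 : (g.toAlgHom).comp (σ a) = (g.toAlgHom).comp (σ b) := by rw [hπ₀, hπ₀, hab]
    have e2 : g (σ a x) = g (σ b x) := congrArg (fun φ : K →ₐ[ℂ] N => φ x) e1
    exact g.injective e2
  refine ⟨g, hg, hgx, Equiv.ofBijective π₀ (Finite.injective_iff_bijective.1 hπi), ?_⟩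
  intro k
  exact ⟨congrArg (fun φ : K →ₐ[ℂ] N => φ x) (hπ₀ k),
    congrArg (fun φ : K →ₐ[ℂ] N => φ y) (hπ₀ k)⟩

end Vale.Agent.P297.Gen
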